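/-
Mankiewicz's theorem for open unit balls of arbitrary real normed spaces, from the local Mazur-Ulam
lemma: an isometry of the open unit ball onto the open unit ball fixing the centre is the restriction
of a surjective linear isometry.
-/
import Vale.Agent.Lib.P084.NS.LocalMU

namespace Vale.Agent.Lib.P084.LpSum

open Vale.Agent.Lib.P084.NS

variable {V V' : Type*} [NormedAddCommGroup V] [NormedSpace ℝ V] [NormedAddCommGroup V']
  [NormedSpace ℝ V']

theorem ball_linear {T : V → V'} (hT0 : T 0 = 0)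
    (hiso : ∀ ζ ζ' : V, ‖ζ‖ < 1 → ‖ζ'‖ < 1 → ‖T ζ - T ζ'‖ = ‖ζ - ζ'‖)
    (honto : ∀ y : V', ‖y‖ < 1 → ∃ ζ : V, ‖ζ‖ < 1 ∧ T ζ = y) :
    ∃ L : V ≃ₗᵢ[ℝ] V', ∀ ζ, ‖ζ‖ < 1 → T ζ = L ζ := by
  have hnorm : ∀ ζ : V, ‖ζ‖ < 1 → ‖T ζ‖ = ‖ζ‖ := by
    intro ζ h
    have := hiso ζ 0 h (by simp)
    rwa [hT0, sub_zero, sub_zero] at this
  have hball : ∀ (ζ₀ : V) (r : ℝ), 0 ≤ r → ‖ζ₀‖ + r < 1 → BallIso T ζ₀ r := by
    intro ζ₀ r hr h
    have hmem : ∀ x : V, ‖x - ζ₀‖ ≤ r → ‖x‖ < 1 := by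
      intro x hx
      have h1 : ‖x‖ ≤ ‖x - ζ₀‖ + ‖ζ₀‖ := by
        have := norm_add_le (x - ζ₀) ζ₀
        rwa [sub_add_cancel] at this
      linarith
    have hz : ‖ζ₀‖ < 1 := by linarith
    refine ⟨fun x hx y hy => hiso x y (hmem x hx) (hmem y hy), fun y hy => ?_⟩
    have hy1 : ‖y‖ < 1 := by
      have h1 : ‖y‖ ≤ ‖y - T ζ₀‖ + ‖T ζ₀‖ := by
        have := norm_add_le (y - T ζ₀) (T ζ₀)
        rwa [sub_add_cancel] at this
      rw [hnorm ζ₀ hz] at h1
      linarith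
    obtain ⟨ζ, hζ, hTζ⟩ := honto y hy1
    refine ⟨ζ, ?_, hTζ⟩
    rw [← hiso ζ ζ₀ hζ hz, hTζ]
    exact hy
  obtain ⟨L, hL⟩ := (hball 0 (1 / 2) (by norm_num) (by simp; norm_num)).exists_linear
    (by norm_num)
  have hL0 : ∀ v : V, ‖v‖ ≤ 1 / 24 → T v = L v := by
    intro v hv
    have := hL v (by norm_num at hv ⊢; linarith)
    rwa [zero_add, hT0, zero_add] at this
  refine ⟨L, ?_⟩
  -- one step of the continuation
  have hstep : ∀ ρ : ℝ, 0 < ρ → ρ < 1 → (∀ v : V, ‖v‖ ≤ ρ → T v = L v) →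
      ∀ v : V, ‖v‖ ≤ ρ + (1 - ρ) / 100 → T v = L v := by
    intro ρ hρ0 hρ1 hK v hv
    by_cases hvρ : ‖v‖ ≤ ρ
    · exact hK v hvρ
    push Not at hvρ
    have hvpos : 0 < ‖v‖ := by linarith
    set τ : ℝ := min (ρ / 2) ((1 - ρ) / 100) with hτ
    have hτ0 : 0 < τ := lt_min (by linarith) (by linarith)
    have hτ1 : τ ≤ ρ / 2 := min_le_left _ _
    have hτ2 : τ ≤ (1 - ρ) / 100 := min_le_right _ _
    set c : ℝ := (ρ - τ) / ‖v‖ with hc
    have hc0 : 0 ≤ c := div_nonneg (by linarith) hvpos.le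
    have hc1 : c ≤ 1 := by
      rw [hc, div_le_one hvpos]
      linarith
    set ζ₀ : V := c • v with hζ₀
    have hnζ₀ : ‖ζ₀‖ = ρ - τ := by
      rw [hζ₀, norm_smul, Real.norm_of_nonneg hc0, hc]
      field_simp
    set r : ℝ := 1 - ρ with hr
    have hr0 : 0 < r := by rw [hr]; linarith
    obtain ⟨L₀, hL₀⟩ := (hball ζ₀ r hr0.le (by rw [hnζ₀, hr]; linarith)).exists_linear hr0
    -- `L₀ = L` on small vectors
    have hsmall : ∀ w : V, ‖w‖ ≤ min τ (r / 12) → L₀ w = L w := by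
      intro w hw
      have hw1 : ‖w‖ ≤ τ := hw.trans (min_le_left _ _)
      have hw2 : ‖w‖ ≤ r / 12 := hw.trans (min_le_right _ _)
      have h1 := hL₀ w hw2
      have hn1 : ‖ζ₀ + w‖ ≤ ρ := by
        calc ‖ζ₀ + w‖ ≤ ‖ζ₀‖ + ‖w‖ := norm_add_le _ _
          _ ≤ ρ := by rw [hnζ₀]; linarith
      have hn2 : ‖ζ₀‖ ≤ ρ := by rw [hnζ₀]; linarith
      rw [hK _ hn1, hK _ hn2, map_add] at h1
      exact (add_left_cancel h1).symm
    have heq : ∀ w : V, L₀ w = L w := by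
      intro w
      by_cases hw : w = 0
      · subst hw
        simp
      have hnw : 0 < ‖w‖ := norm_pos_iff.2 hw
      set m : ℝ := min τ (r / 12) with hm
      have hm0 : 0 < m := lt_min hτ0 (by positivity)
      have h1 := hsmall ((m / ‖w‖) • w) (by
        rw [norm_smul, Real.norm_of_nonneg (by positivity)]
        field_simp
        exact le_rfl)
      rw [map_smul, map_smul] at h1
      have hne : m / ‖w‖ ≠ 0 := by positivity
      exact smul_right_injective V' hne h1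
    -- conclusion
    have hdist : ‖v - ζ₀‖ ≤ r / 12 := by
      have e : v - ζ₀ = (1 - c) • v := by rw [hζ₀]; module
      rw [e, norm_smul, Real.norm_of_nonneg (by linarith)]
      have : (1 - c) * ‖v‖ = ‖v‖ - (ρ - τ) := by
        rw [sub_mul, one_mul, hc]
        field_simp
      rw [this, hr]
      linarith
    have h2 := hL₀ (v - ζ₀) hdist
    have hn2 : ‖ζ₀‖ ≤ ρ := by rw [hnζ₀]; linarith
    rw [add_sub_cancel, hK _ hn2, heq, ← map_add, add_sub_cancel] at h2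
    exact h2
  -- iterate
  let ρ : ℕ → ℝ := fun k => 1 - (23 / 24) * (99 / 100) ^ k
  have hρ0 : ∀ k, 0 < ρ k := by
    intro k
    have h1 : ((99 : ℝ) / 100) ^ k ≤ 1 := pow_le_one₀ (by norm_num) (by norm_num)
    have h2 : (0 : ℝ) < ((99 : ℝ) / 100) ^ k := by positivity
    show 0 < 1 - (23 / 24) * (99 / 100) ^ k
    nlinarith
  have hρ1 : ∀ k, ρ k < 1 := by
    intro k
    have h2 : (0 : ℝ) < ((99 : ℝ) / 100) ^ k := by positivity
    show 1 - (23 / 24) * (99 / 100) ^ k < 1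
    nlinarith
  have hind : ∀ k, ∀ v : V, ‖v‖ ≤ ρ k → T v = L v := by
    intro k
    induction k with
    | zero =>
      intro v hv
      apply hL0
      have : ρ 0 = 1 / 24 := by
        show 1 - (23 / 24) * ((99 : ℝ) / 100) ^ 0 = 1 / 24
        norm_num
      rwa [this] at hv
    | succ k ih =>
      intro v hv
      apply hstep (ρ k) (hρ0 k) (hρ1 k) ih v
      have : ρ (k + 1) = ρ k + (1 - ρ k) / 100 := by
        show 1 - (23 / 24) * ((99 : ℝ) / 100) ^ (k + 1) =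
          (1 - (23 / 24) * (99 / 100) ^ k) + (1 - (1 - (23 / 24) * (99 / 100) ^ k)) / 100
        rw [pow_succ]
        ring
      rwa [this] at hv
  intro ζ hζ
  obtain ⟨k, hk⟩ := exists_pow_lt_of_lt_one (show 0 < 1 - ‖ζ‖ by linarith)
    (show (99 : ℝ) / 100 < 1 by norm_num)
  refine hind k ζ ?_
  show ‖ζ‖ ≤ 1 - (23 / 24) * (99 / 100) ^ k
  have h2 : (0 : ℝ) < ((99 : ℝ) / 100) ^ k := by positivity
  nlinarith

end Vale.Agent.Lib.P084.LpSum
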