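/-
`L_p`-summands.
-/
import Vale.Agent.Lib.P084.Defs
import Mathlib

namespace Vale.Agent.Lib.P084.LpSum

/-- The line `ℝ e` is an `L_p`-summand of `X` with complement `ker l`: `X = ker l ⊕_p ℝ e`. -/
structure IsLpLine {X : Type*} [NormedAddCommGroup X] [NormedSpace ℝ X] (p : ℝ) (e : X)
    (l : X →L[ℝ] ℝ) : Prop where
  norm_e : ‖e‖ = 1
  l_e : l e = 1
  pyth : ∀ x, ‖x‖ ^ p = ‖x - l x • e‖ ^ p + |l x| ^ p

end Vale.Agent.Lib.P084.LpSum
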