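/-
Tingley's problem for `Z ⊕_p W`, `1 < p < ∞`, `Z` arbitrary, `W` strictly convex.

`P` the `L_p`-projection on `W`.
(1) Strict convexity of `t ↦ t ^ p` and of `W`: flat directions are killed by `P`, so `P ∘ g` is additive
on unit triples of `Y`; by the common functional lemma and Hahn-Banach it is a bounded linear map `Q`:
`Q ∘ f = P` on the sphere.
(2) For `t` unit, `t' = 2 P t - t`: `f t + f t' = 2 Φ (P t)`, `Φ w = ‖w‖ f (w / ‖w‖)`, by strict convexity of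
`W`. So `‖y‖ ^ p = ‖y - Φ (Q y)‖ ^ p + ‖Q y‖ ^ p` on `Y`.
(3) On the open unit ball of `ker P`, `ζ ↦ f (ζ + b e) - b f e` is an isometry onto the open unit ball of
`ker Q` fixing `0`; the local Mazur-Ulam theorem makes it linear (`L_e`); `L_e` does not depend on `e`.
(4) `Φ` is additive on `W`, by the norm formula of (2) applied to `(a z + w) - (- a' z + w')`.
(5) `x ↦ L (x - P x) + Φ (P x)` is the extension.
-/
import Vale.Agent.Lib.P084.LpSum.Main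

namespace Vale.Agent.Lib.P084.LpSum

open Vale.Agent.Lib.P084.UC Vale.Agent.Lib.P084.RNP Vale.Agent.Lib.P084.NS
open Metric

universe u v

variable {X : Type u} {Y : Type v} [NormedAddCommGroup X] [NormedSpace ℝ X] [NormedAddCommGroup Y]
  [NormedSpace ℝ Y]

/-- Real lemma: flatness in the `p`-sum makes the second coordinate flat. -/
theorem flat_real2 {p : ℝ} (hp : 1 < p) {A B a C D c : ℝ} (hA : 0 ≤ A) (hB : 0 ≤ B) (ha : 0 ≤ a)
    (hC : 0 ≤ C) (hD : 0 ≤ D) (hc0 : 0 ≤ c)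
    (hab : 2 * a ≤ A + B) (hcd : 2 * c ≤ C + D) (h1 : A ^ p + C ^ p = a ^ p + c ^ p)
    (h2 : B ^ p + D ^ p = a ^ p + c ^ p) : C = c ∧ D = c := by
  have hp0 : 0 < p := by linarith
  have hc := strictConvexOn_rpow hp
  have hmid : ∀ x y : ℝ, 0 ≤ x → 0 ≤ y → ((x + y) / 2) ^ p ≤ (x ^ p + y ^ p) / 2 := by
    intro x y hx hy
    have := hc.convexOn.2 (Set.mem_Ici.2 hx) (Set.mem_Ici.2 hy) (by norm_num : (0 : ℝ) ≤ 1 / 2)
      (by norm_num : (0 : ℝ) ≤ 1 / 2) (by norm_num)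
    simp only [smul_eq_mul] at this
    have e : 1 / 2 * x + 1 / 2 * y = (x + y) / 2 := by ring
    rw [e] at this
    linarith
  have c1 : a ^ p ≤ (A ^ p + B ^ p) / 2 :=
    (Real.rpow_le_rpow ha (by linarith) hp0.le).trans (hmid A B hA hB)
  have c2 : c ^ p ≤ ((C + D) / 2) ^ p := Real.rpow_le_rpow hc0 (by linarith) hp0.le
  have c3 := hmid C D hC hD
  have hCD : C = D := by
    by_contra hne
    have := hc.2 (Set.mem_Ici.2 hC) (Set.mem_Ici.2 hD) hne (by norm_num : (0 : ℝ) < 1 / 2)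
      (by norm_num : (0 : ℝ) < 1 / 2) (by norm_num)
    simp only [smul_eq_mul] at this
    have e : 1 / 2 * C + 1 / 2 * D = (C + D) / 2 := by ring
    rw [e] at this
    linarith
  subst hCD
  have e : (C + C) / 2 = C := by ring
  rw [e] at c2
  have hCc : C = c := by
    apply rpow_inj hp0 hC hc0
    linarith
  exact ⟨hCc, hCc⟩

/-- The height function at the end point. -/
theorem bb_rpow' {p r : ℝ} (hp0 : 0 < p) (h0 : 0 ≤ r) (h1 : r ≤ 1) :
    Ctx.bb p r ^ p = 1 - r ^ p := by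
  have : r ^ p ≤ 1 := Real.rpow_le_one h0 h1 hp0.le
  rw [Ctx.bb, ← Real.rpow_mul (by linarith), one_div, inv_mul_cancel₀ hp0.ne', Real.rpow_one]

theorem bb_nonneg' {p r : ℝ} (h0 : 0 ≤ r) (hp0 : 0 < p) (h1 : r ≤ 1) : 0 ≤ Ctx.bb p r := by
  have : r ^ p ≤ 1 := Real.rpow_le_one h0 h1 hp0.le
  exact Real.rpow_nonneg (by linarith) _

namespace IsLpSummand

variable {p : ℝ} {P : X →L[ℝ] X}

theorem norm_P_le (H : IsLpSummand p P) (hp : 1 < p) (x : X) : ‖P x‖ ≤ ‖x‖ := by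
  have hp0 : 0 < p := by linarith
  have h1 := H.pyth x
  have h2 : 0 ≤ ‖x - P x‖ ^ p := by positivity
  have h3 : ‖P x‖ ^ p ≤ ‖x‖ ^ p := by linarith
  exact (Real.rpow_le_rpow_iff (norm_nonneg _) (norm_nonneg _) hp0).1 h3

/-- Flat directions are killed by `P`. -/
theorem flat (H : IsLpSummand p P) (hp : 1 < p)
    (hsc : ∀ a b : X, P a = a → P b = b → ‖a + b‖ = ‖a‖ + ‖b‖ → ‖a‖ = ‖b‖ → a = b) {v ε : X}
    (h1 : ‖v + ε‖ = ‖v‖) (h2 : ‖v - ε‖ = ‖v‖) : P ε = 0 := by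
  have key := flat_real2 hp (A := ‖v + ε - P (v + ε)‖) (B := ‖v - ε - P (v - ε)‖)
    (a := ‖v - P v‖) (C := ‖P (v + ε)‖) (D := ‖P (v - ε)‖) (c := ‖P v‖) (norm_nonneg _)
    (norm_nonneg _) (norm_nonneg _) (norm_nonneg _) (norm_nonneg _) (norm_nonneg _)
    (by
      have e1 : (2 : ℝ) • (v - P v) = (v + ε - P (v + ε)) + (v - ε - P (v - ε)) := by
        simp only [map_add, map_sub]
        module
      have h3 := norm_add_le (v + ε - P (v + ε)) (v - ε - P (v - ε))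
      rw [← e1, norm_smul] at h3
      simpa using h3)
    (by
      have e1 : (2 : ℝ) • P v = P (v + ε) + P (v - ε) := by
        simp only [map_add, map_sub]
        module
      have h3 := norm_add_le (P (v + ε)) (P (v - ε))
      rw [← e1, norm_smul] at h3
      simpa using h3)
    (by rw [← H.pyth, ← H.pyth, h1]) (by rw [← H.pyth, ← H.pyth, h2])
  have h3 := hsc (P (v + ε)) (P (v - ε)) (H.idem _) (H.idem _) (by
      have e1 : P (v + ε) + P (v - ε) = (2 : ℝ) • P v := by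
        simp only [map_add, map_sub]
        module
      rw [e1, norm_smul, key.1, key.2]
      simp
      ring) (by rw [key.1, key.2])
  have h4 : (2 : ℝ) • P ε = 0 := by
    have e1 : (2 : ℝ) • P ε = P (v + ε) - P (v - ε) := by
      simp only [map_add, map_sub]
      module
    rw [e1, h3, sub_self]
  simpa using h4

/-- A unit vector whose `P`-part is a unit vector is its `P`-part. -/
theorem eq_of_norm_P (H : IsLpSummand p P) (hp : 1 < p) {u : X} (hu : ‖u‖ = 1) (h : ‖P u‖ = 1) :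
    u = P u := by
  have hp0 : 0 < p := by linarith
  have h1 := H.pyth u
  rw [hu, h, Real.one_rpow] at h1
  have h2 : ‖u - P u‖ ^ p = 0 := by linarith
  have h3 : ‖u - P u‖ = 0 := by
    rwa [Real.rpow_eq_zero (norm_nonneg _) hp0.ne'] at h2
  exact sub_eq_zero.1 (norm_eq_zero.1 h3)

/-- The reflected point. -/
theorem bar_unit (H : IsLpSummand p P) (hp : 1 < p) {t : X} (ht : ‖t‖ = 1) :
    ‖(2 : ℝ) • P t - t‖ = 1 := by
  have hp0 : 0 < p := by linarith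
  have h0 := H.pyth t
  have hl : P ((2 : ℝ) • P t - t) = P t := by
    rw [map_sub, map_smul, H.idem]
    module
  have h1 := H.pyth ((2 : ℝ) • P t - t)
  rw [hl] at h1
  have e1 : (2 : ℝ) • P t - t - P t = -(t - P t) := by module
  rw [e1, norm_neg, ← h0, ht, Real.one_rpow] at h1
  apply rpow_inj hp0 (norm_nonneg _) zero_le_one
  rw [h1, Real.one_rpow]

end IsLpSummand

/-- Separation by functionals of the dual ball. -/
theorem ext_dual {a b : X} (h : ∀ χ : X →L[ℝ] ℝ, ‖χ‖ ≤ 1 → χ a = χ b) : a = b := by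
  by_contra hne
  have hz : a - b ≠ 0 := sub_ne_zero.2 hne
  obtain ⟨χ, h1, h2⟩ := exists_dual_vector ℝ (a - b) (norm_ne_zero_iff.2 hz)
  have h3 := h χ h1.le
  rw [map_sub, h3, sub_self] at h2
  have h4 : ‖a - b‖ = 0 := by
    have : ((‖a - b‖ : ℝ) : ℝ) = 0 := by simpa using h2.symm
    exact this
  exact hz (norm_eq_zero.1 h4)

/-- The linear map `Q`. -/
theorem exists_Q {p : ℝ} {P : X →L[ℝ] X} {f : X → Y} {g : Y → X} (H : IsLpSummand p P)
    (hp : 1 < p) (hsc : ∀ a b : X, P a = a → P b = b → ‖a + b‖ = ‖a‖ + ‖b‖ → ‖a‖ = ‖b‖ → a = b)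
    (hrank : (4 : Cardinal) ≤ Module.rank ℝ Y) (hf : IsSphereIso f)
    (hg : IsSphereIso g) (hgf : ∀ x : X, ‖x‖ = 1 → g (f x) = x)
    (hfg : ∀ y : Y, ‖y‖ = 1 → f (g y) = y) (hodd : ∀ x : X, ‖x‖ = 1 → f (-x) = - f x)
    (hgodd : ∀ y : Y, ‖y‖ = 1 → g (-y) = - g y) :
    ∃ Q : Y →L[ℝ] X, (∀ y, ‖Q y‖ ≤ ‖y‖) ∧ (∀ y, P (Q y) = Q y) ∧
      ∀ x : X, ‖x‖ = 1 → Q (f x) = P x := by
  -- the functionals
  have hψ : ∀ χ : X →L[ℝ] ℝ, ‖χ‖ ≤ 1 → ∃ ψ : Y →L[ℝ] ℝ, ∀ y : Y, ‖y‖ = 1 → ψ y = χ (P (g y)) := by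
    intro χ hχ
    have hχle : ∀ x : X, |χ x| ≤ ‖x‖ := fun x => by
      have h1 := χ.le_opNorm x
      have h2 : ‖χ‖ * ‖x‖ ≤ 1 * ‖x‖ := mul_le_mul_of_nonneg_right hχ (norm_nonneg _)
      rw [one_mul] at h2
      exact (h1.trans h2)
    obtain ⟨ψ, -, h2⟩ := exists_functional_of_additive hrank (H := fun y => χ (P (g y)))
      (fun y hy => by
        show χ (P (g (-y))) = - χ (P (g y))
        rw [hgodd y hy, map_neg, map_neg])
      (fun y hy => by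
        have h1 := (hχle (P (g y))).trans (H.norm_P_le hp (g y))
        rwa [hg.norm_eq y hy] at h1)
      (fun y y' hy hy' => by
        show |χ (P (g y)) - χ (P (g y'))| ≤ _
        rw [← map_sub, ← map_sub, ← hg.iso y y' hy hy']
        exact (hχle _).trans (H.norm_P_le hp _))
      (fun y y' hy hy' hyy' => by
        show χ (P (g (y + y'))) = χ (P (g y)) + χ (P (g y'))
        set x := g y with hx
        set z := g y' with hz
        set w := g (-(y + y')) with hw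
        have hx1 : ‖x‖ = 1 := hg.norm_eq y hy
        have hz1 : ‖z‖ = 1 := hg.norm_eq y' hy'
        have hw1 : ‖w‖ = 1 := hg.norm_eq _ (by rw [norm_neg]; exact hyy')
        have hfx : f x = y := hfg y hy
        have hfz : f z = y' := hfg y' hy'
        have hfw : f w = -(y + y') := hfg _ (by rw [norm_neg]; exact hyy')
        have hwe : w = - g (y + y') := hgodd _ hyy'
        have hxw : ‖x + w‖ = 1 := by
          rw [← norm_f_add' hf hodd hx1 hw1, hfx, hfw]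
          have : y + -(y + y') = - y' := by abel
          rw [this, norm_neg]; exact hy'
        have hzw : ‖z + w‖ = 1 := by
          rw [← norm_f_add' hf hodd hz1 hw1, hfz, hfw]
          have : y' + -(y + y') = - y := by abel
          rw [this, norm_neg]; exact hy
        have h3 := two_add_eq hf hodd hx1 hw1 hxw hz1 (by rw [hfw, hfx, hfz]; abel)
        have h4 := two_add_eq hf hodd hz1 hw1 hzw hx1 (by rw [hfw, hfx, hfz]; abel)
        have hflat : P (x + z + w) = 0 := by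
          refine H.flat hp hsc (v := x - z) ?_ ?_
          · have e : x - z + (x + z + w) = (2 : ℝ) • x + w := by module
            rw [e, h3]
          · have e : x - z - (x + z + w) = -((2 : ℝ) • z + w) := by module
            rw [e, norm_neg, h4, norm_sub_rev]
        rw [map_add, map_add, hwe, map_neg] at hflat
        have h5 := congrArg χ hflat
        simp only [map_add, map_neg, map_zero] at h5
        linarith)
    exact ⟨ψ, h2⟩
  choose! Ψ hΨ using hψ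
  -- the map
  let Qf : Y → X := fun y => ‖y‖ • P (g (‖y‖⁻¹ • y))
  have hQχ : ∀ χ : X →L[ℝ] ℝ, ‖χ‖ ≤ 1 → ∀ y, χ (Qf y) = Ψ χ y := by
    intro χ hχ y
    by_cases hy : y = 0
    · subst hy
      simp [Qf]
    have hn : 0 < ‖y‖ := norm_pos_iff.2 hy
    have hu : ‖‖y‖⁻¹ • y‖ = 1 := by
      rw [norm_smul, norm_inv, norm_norm, inv_mul_cancel₀ hn.ne']
    have h1 := hΨ χ hχ _ hu
    rw [map_smul, smul_eq_mul] at h1
    show χ (‖y‖ • P (g (‖y‖⁻¹ • y))) = _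
    rw [map_smul, smul_eq_mul, ← h1, ← mul_assoc, mul_inv_cancel₀ hn.ne', one_mul]
  let Ql : Y →ₗ[ℝ] X :=
    { toFun := Qf
      map_add' := fun y y' => ext_dual fun χ hχ => by
        rw [map_add, hQχ χ hχ, hQχ χ hχ, hQχ χ hχ, map_add]
      map_smul' := fun c y => ext_dual fun χ hχ => by
        show χ (Qf (c • y)) = χ (c • Qf y)
        rw [hQχ χ hχ, map_smul, map_smul, hQχ χ hχ] }
  have hQl : ∀ y, Ql y = Qf y := fun _ => rfl
  have hbd : ∀ y, ‖Ql y‖ ≤ 1 * ‖y‖ := by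
    intro y
    rw [one_mul, hQl]
    by_cases hy : y = 0
    · subst hy
      simp [Qf]
    have hn : 0 < ‖y‖ := norm_pos_iff.2 hy
    have hu : ‖‖y‖⁻¹ • y‖ = 1 := by
      rw [norm_smul, norm_inv, norm_norm, inv_mul_cancel₀ hn.ne']
    show ‖‖y‖ • P (g (‖y‖⁻¹ • y))‖ ≤ _
    rw [norm_smul, norm_norm]
    have h1 := H.norm_P_le hp (g (‖y‖⁻¹ • y))
    rw [hg.norm_eq _ hu] at h1
    nlinarith
  refine ⟨Ql.mkContinuous 1 hbd, fun y => ?_, fun y => ?_, fun x hx => ?_⟩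
  · have := hbd y
    rw [one_mul] at this
    exact this
  · show P (Qf y) = Qf y
    show P (‖y‖ • P (g (‖y‖⁻¹ • y))) = ‖y‖ • P (g (‖y‖⁻¹ • y))
    rw [map_smul, H.idem]
  · show Qf (f x) = P x
    show ‖f x‖ • P (g (‖f x‖⁻¹ • f x)) = P x
    rw [hf.norm_eq x hx, inv_one, one_smul, one_smul, hgf x hx]

/-- The standing assumptions. -/
structure SCtx (p : ℝ) (P : X →L[ℝ] X) (f : X → Y) (g : Y → X) (Q : Y →L[ℝ] X) : Prop where
  H : IsLpSummand p P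
  hp : 1 < p
  hsc : ∀ a b : X, P a = a → P b = b → ‖a + b‖ = ‖a‖ + ‖b‖ → ‖a‖ = ‖b‖ → a = b
  hf : IsSphereIso f
  hg : IsSphereIso g
  hgf : ∀ x : X, ‖x‖ = 1 → g (f x) = x
  hfg : ∀ y : Y, ‖y‖ = 1 → f (g y) = y
  hodd : ∀ x : X, ‖x‖ = 1 → f (-x) = - f x
  hQb : ∀ y, ‖Q y‖ ≤ ‖y‖
  hPQ : ∀ y, P (Q y) = Q y
  hQ : ∀ x : X, ‖x‖ = 1 → Q (f x) = P x

/-- The radial extension. -/
noncomputable def Phi (f : X → Y) (w : X) : Y := ‖w‖ • f (‖w‖⁻¹ • w)

theorem Phi_zero (f : X → Y) : Phi f 0 = 0 := by simp [Phi]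

theorem Phi_unit (f : X → Y) {e : X} (h : ‖e‖ = 1) : Phi f e = f e := by simp [Phi, h]

theorem Phi_smul_pos (f : X → Y) {r : ℝ} (hr : 0 < r) (w : X) : Phi f (r • w) = r • Phi f w := by
  by_cases hw : w = 0
  · subst hw
    simp [Phi]
  have hn : ‖w‖ ≠ 0 := norm_ne_zero_iff.2 hw
  have h1 : ‖r • w‖⁻¹ • (r • w) = ‖w‖⁻¹ • w := by
    rw [norm_smul, Real.norm_of_nonneg hr.le, smul_smul]
    congr 1
    field_simp
  rw [Phi, h1, norm_smul, Real.norm_of_nonneg hr.le, Phi, smul_smul]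

theorem unit_of_ne {w : X} (hw : w ≠ 0) : ‖‖w‖⁻¹ • w‖ = 1 := by
  have hn : ‖w‖ ≠ 0 := norm_ne_zero_iff.2 hw
  rw [norm_smul, norm_inv, norm_norm, inv_mul_cancel₀ hn]

namespace SCtx

variable {p : ℝ} {P : X →L[ℝ] X} {f : X → Y} {g : Y → X} {Q : Y →L[ℝ] X}

theorem hp0 (C : SCtx p P f g Q) : 0 < p := by linarith [C.hp]

theorem Phi_neg (C : SCtx p P f g Q) (w : X) : Phi f (-w) = - Phi f w := by
  by_cases hw : w = 0
  · subst hw
    simp [Phi]
  rw [Phi, norm_neg, smul_neg, C.hodd _ (unit_of_ne hw), smul_neg, Phi]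

theorem Phi_smul (C : SCtx p P f g Q) (c : ℝ) (w : X) : Phi f (c • w) = c • Phi f w := by
  rcases lt_trichotomy c 0 with h | h | h
  · have h1 : c • w = (-c) • (-w) := by rw [neg_smul, smul_neg, neg_neg]
    rw [h1, Phi_smul_pos f (by linarith), C.Phi_neg, neg_smul, smul_neg, neg_neg]
  · subst h
    rw [zero_smul, zero_smul, Phi_zero]
  · exact Phi_smul_pos f h w

theorem norm_Phi (C : SCtx p P f g Q) (w : X) : ‖Phi f w‖ = ‖w‖ := by
  by_cases hw : w = 0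
  · subst hw
    simp [Phi]
  rw [Phi, norm_smul, norm_norm, C.hf.norm_eq _ (unit_of_ne hw), mul_one]

theorem Q_Phi (C : SCtx p P f g Q) {w : X} (hP : P w = w) : Q (Phi f w) = w := by
  by_cases hw : w = 0
  · subst hw
    simp [Phi]
  have hn : ‖w‖ ≠ 0 := norm_ne_zero_iff.2 hw
  rw [Phi, map_smul, C.hQ _ (unit_of_ne hw), map_smul, hP, smul_smul, mul_inv_cancel₀ hn, one_smul]

/-- The top of the face of `e`. -/
theorem eq_f (C : SCtx p P f g Q) {e : X} {v : Y} (he : ‖e‖ = 1) (hv : ‖v‖ = 1) (h : Q v = e) :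
    v = f e := by
  have h1 : ‖g v‖ = 1 := C.hg.norm_eq v hv
  have h2 : P (g v) = e := by rw [← C.hQ _ h1, C.hfg v hv, h]
  have h3 := C.H.eq_of_norm_P C.hp h1 (by rw [h2, he])
  rw [h2] at h3
  rw [← h3, C.hfg v hv]

theorem K_eq (C : SCtx p P f g Q) {t : X} (ht : ‖t‖ = 1) (hw : P t ≠ 0) :
    f t + f ((2 : ℝ) • P t - t) = (2 : ℝ) • Phi f (P t) := by
  have ht' := C.H.bar_unit C.hp ht
  have hl : P ((2 : ℝ) • P t - t) = P t := by
    rw [map_sub, map_smul, C.H.idem]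
    module
  set K := f t + f ((2 : ℝ) • P t - t) with hK
  have hn0 : 0 < ‖P t‖ := norm_pos_iff.2 hw
  have hn : ‖K‖ = 2 * ‖P t‖ := by
    rw [hK, norm_f_add' C.hf C.hodd ht ht']
    have e1 : t + ((2 : ℝ) • P t - t) = (2 : ℝ) • P t := by abel
    rw [e1, norm_smul]
    simp
  have hQK : Q K = (2 : ℝ) • P t := by
    rw [hK, map_add, C.hQ t ht, C.hQ _ ht', hl]
    module
  have hb2 : (2 * ‖P t‖) ≠ 0 := by positivity
  have hv := C.eq_f (e := ‖P t‖⁻¹ • P t) (v := (2 * ‖P t‖)⁻¹ • K) (unit_of_ne hw)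
    (by rw [norm_smul, hn, norm_inv, Real.norm_of_nonneg (by positivity), inv_mul_cancel₀ hb2])
    (by
      rw [map_smul, hQK, smul_smul]
      congr 1
      field_simp)
  rw [Phi, ← hv, smul_smul, smul_smul]
  rw [mul_inv_cancel₀ hb2, one_smul]

theorem pi_norm (C : SCtx p P f g Q) {t : X} (ht : ‖t‖ = 1) :
    ‖f t - Phi f (P t)‖ = ‖t - P t‖ := by
  by_cases hw : P t = 0
  · rw [hw, Phi_zero, sub_zero, sub_zero, C.hf.norm_eq t ht, ht]
  have ht' := C.H.bar_unit C.hp ht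
  have hK := C.K_eq ht hw
  have e1 : f t - Phi f (P t) = (1 / 2 : ℝ) • (f t - f ((2 : ℝ) • P t - t)) := by
    have e2 : Phi f (P t) = (1 / 2 : ℝ) • ((2 : ℝ) • Phi f (P t)) := by
      rw [smul_smul]; norm_num
    rw [e2, ← hK]
    module
  have e3 : t - ((2 : ℝ) • P t - t) = (2 : ℝ) • (t - P t) := by module
  rw [e1, norm_smul, C.hf.iso _ _ ht ht', e3, norm_smul]
  norm_num
  ring

/-- `Y` is the same `p`-sum. -/
theorem line (C : SCtx p P f g Q) (y : Y) :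
    ‖y‖ ^ p = ‖y - Phi f (Q y)‖ ^ p + ‖Q y‖ ^ p := by
  by_cases hy : y = 0
  · subst hy
    simp [Phi, Real.zero_rpow C.hp0.ne']
  have hr : 0 < ‖y‖ := norm_pos_iff.2 hy
  set r := ‖y‖ with hrdef
  set v : Y := r⁻¹ • y with hv
  have hv1 : ‖v‖ = 1 := by
    rw [hv, norm_smul, norm_inv, norm_norm, inv_mul_cancel₀ hr.ne']
  have hy' : y = r • v := by
    rw [hv, smul_smul, mul_inv_cancel₀ hr.ne', one_smul]
  have ht1 : ‖g v‖ = 1 := C.hg.norm_eq v hv1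
  have h1 := C.pi_norm ht1
  rw [C.hfg v hv1] at h1
  have h2 := C.H.pyth (g v)
  have h3 : P (g v) = Q v := by
    have := C.hQ _ ht1
    rw [C.hfg v hv1] at this
    exact this.symm
  rw [h3] at h1 h2
  rw [ht1, Real.one_rpow, ← h1] at h2
  have e1 : y - Phi f (Q y) = r • (v - Phi f (Q v)) := by
    rw [hy', map_smul, Phi_smul_pos f hr, smul_sub]
  have e2 : Q y = r • Q v := by rw [hy', map_smul]
  rw [e1, e2, norm_smul, norm_smul, Real.norm_of_nonneg hr.le, Real.mul_rpow hr.le (norm_nonneg _),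
    Real.mul_rpow hr.le (norm_nonneg _), ← mul_add, ← h2, mul_one]

/-- Norm attained: `y = Φ (Q y)`. -/
theorem eq_Phi_of_norm (C : SCtx p P f g Q) {y : Y} (h : ‖y‖ = ‖Q y‖) : y = Phi f (Q y) := by
  have h1 := C.line y
  rw [h] at h1
  have h2 : ‖y - Phi f (Q y)‖ ^ p = 0 := by linarith
  have h3 : ‖y - Phi f (Q y)‖ = 0 := by
    rwa [Real.rpow_eq_zero (norm_nonneg _) C.hp0.ne'] at h2
  exact sub_eq_zero.1 (norm_eq_zero.1 h3)

/-- The unit vector over `ζ`. -/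
noncomputable def UU (p : ℝ) (e : X) (P : X →L[ℝ] X) (ζ : LinearMap.ker (P : X →ₗ[ℝ] X)) : X :=
  (ζ : X) + Ctx.bb p ‖ζ‖ • e

theorem P_ker (ζ : LinearMap.ker (P : X →ₗ[ℝ] X)) : P (ζ : X) = 0 := LinearMap.mem_ker.1 ζ.2

theorem Q_ker (y : LinearMap.ker (Q : Y →ₗ[ℝ] X)) : Q (y : Y) = 0 := LinearMap.mem_ker.1 y.2

theorem P_UU {e : X} (hPe : P e = e) (ζ : LinearMap.ker (P : X →ₗ[ℝ] X)) :
    P (UU p e P ζ) = Ctx.bb p ‖ζ‖ • e := by
  rw [UU, map_add, map_smul, hPe, P_ker, zero_add]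

theorem sub_UU {e : X} (hPe : P e = e) (ζ : LinearMap.ker (P : X →ₗ[ℝ] X)) :
    UU p e P ζ - P (UU p e P ζ) = ζ := by
  rw [P_UU hPe, UU, add_sub_cancel_right]

theorem norm_UU (C : SCtx p P f g Q) {e : X} (he : ‖e‖ = 1) (hPe : P e = e)
    {ζ : LinearMap.ker (P : X →ₗ[ℝ] X)} (hζ : ‖ζ‖ < 1) : ‖UU p e P ζ‖ = 1 := by
  have h1 := C.H.pyth (UU p e P ζ)
  have hb := Ctx.bb_pos (r := ‖ζ‖) C.hp0 (norm_nonneg _) hζ
  have hζ' : ‖(ζ : X)‖ = ‖ζ‖ := rfl
  rw [sub_UU hPe, P_UU hPe, norm_smul, he, mul_one, Real.norm_of_nonneg hb.le,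
    Ctx.bb_rpow C.hp0 (norm_nonneg _) hζ, hζ'] at h1
  apply rpow_inj C.hp0 (norm_nonneg _) zero_le_one
  rw [h1, Real.one_rpow]
  ring

/-- The projection on `ker P`. -/
noncomputable def piX (H : IsLpSummand p P) : X →ₗ[ℝ] LinearMap.ker (P : X →ₗ[ℝ] X) :=
  LinearMap.codRestrict _ ((LinearMap.id : X →ₗ[ℝ] X) - (P : X →ₗ[ℝ] X)) (fun x => by
    rw [LinearMap.mem_ker]
    show P (x - P x) = 0
    rw [map_sub, H.idem, sub_self])

theorem piX_coe (H : IsLpSummand p P) (x : X) : (piX H x : X) = x - P x := rfl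

/-- The projection on `ker Q`. -/
noncomputable def piY (C : SCtx p P f g Q) (y : Y) : LinearMap.ker (Q : Y →ₗ[ℝ] X) :=
  ⟨y - Phi f (Q y), by
    rw [LinearMap.mem_ker]
    show Q (y - Phi f (Q y)) = 0
    rw [map_sub, C.Q_Phi (C.hPQ y), sub_self]⟩

theorem piY_coe (C : SCtx p P f g Q) (y : Y) : (C.piY y : Y) = y - Phi f (Q y) := rfl

/-- The map of the open unit balls. -/
noncomputable def TT (C : SCtx p P f g Q) (e : X) (ζ : LinearMap.ker (P : X →ₗ[ℝ] X)) :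
    LinearMap.ker (Q : Y →ₗ[ℝ] X) :=
  C.piY (f (UU p e P ζ))

theorem TT_coe (C : SCtx p P f g Q) {e : X} (he : ‖e‖ = 1) (hPe : P e = e)
    {ζ : LinearMap.ker (P : X →ₗ[ℝ] X)} (hζ : ‖ζ‖ < 1) :
    (C.TT e ζ : Y) = f (UU p e P ζ) - Ctx.bb p ‖ζ‖ • f e := by
  show (C.piY (f (UU p e P ζ)) : Y) = _
  rw [piY_coe, C.hQ _ (C.norm_UU he hPe hζ), P_UU hPe, C.Phi_smul, Phi_unit f he]

theorem TT_zero (C : SCtx p P f g Q) {e : X} (he : ‖e‖ = 1) (hPe : P e = e) : C.TT e 0 = 0 := by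
  apply Subtype.ext
  have hb : Ctx.bb p ‖(0 : LinearMap.ker (P : X →ₗ[ℝ] X))‖ = 1 := by
    rw [norm_zero, Ctx.bb, Real.zero_rpow C.hp0.ne', sub_zero, Real.one_rpow]
  have hU : UU p e P (0 : LinearMap.ker (P : X →ₗ[ℝ] X)) = e := by
    rw [UU, hb]
    simp
  rw [C.TT_coe he hPe (by simp), hU, hb, one_smul, sub_self]
  rfl

theorem TT_iso (C : SCtx p P f g Q) {e : X} (he : ‖e‖ = 1) (hPe : P e = e)
    (ζ ζ' : LinearMap.ker (P : X →ₗ[ℝ] X)) (h : ‖ζ‖ < 1) (h' : ‖ζ'‖ < 1) :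
    ‖C.TT e ζ - C.TT e ζ'‖ = ‖ζ - ζ'‖ := by
  have hU := C.norm_UU he hPe h
  have hU' := C.norm_UU he hPe h'
  set b := Ctx.bb p ‖ζ‖ with hb
  set b' := Ctx.bb p ‖ζ'‖ with hb'
  set x := UU p e P ζ - UU p e P ζ' with hx
  set y := f (UU p e P ζ) - f (UU p e P ζ') with hy
  have hxy : ‖y‖ = ‖x‖ := C.hf.iso _ _ hU hU'
  have hPx : P x = (b - b') • e := by
    rw [hx, map_sub, P_UU hPe, P_UU hPe, sub_smul]
  have hl : Q y = (b - b') • e := by
    rw [hy, map_sub, C.hQ _ hU, C.hQ _ hU', ← hPx, hx, map_sub]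
  have h1 := C.line y
  have h2 := C.H.pyth x
  rw [hxy, h2, hl, hPx, C.Phi_smul, Phi_unit f he] at h1
  have h3 : ‖y - (b - b') • f e‖ = ‖x - (b - b') • e‖ := by
    apply rpow_inj C.hp0 (norm_nonneg _) (norm_nonneg _)
    linarith
  have e1 : ‖C.TT e ζ - C.TT e ζ'‖ = ‖y - (b - b') • f e‖ := by
    show ‖((C.TT e ζ - C.TT e ζ' : LinearMap.ker (Q : Y →ₗ[ℝ] X)) : Y)‖ = _
    congr 1
    rw [Submodule.coe_sub, C.TT_coe he hPe h, C.TT_coe he hPe h', hy, sub_smul]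
    abel
  have e2 : ‖ζ - ζ'‖ = ‖x - (b - b') • e‖ := by
    show ‖((ζ - ζ' : LinearMap.ker (P : X →ₗ[ℝ] X)) : X)‖ = _
    congr 1
    rw [Submodule.coe_sub, hx, sub_smul, UU, UU]
    abel
  rw [e1, e2, h3]

theorem TT_onto (C : SCtx p P f g Q) {e : X} (he : ‖e‖ = 1) (hPe : P e = e)
    (y : LinearMap.ker (Q : Y →ₗ[ℝ] X)) (hy : ‖y‖ < 1) :
    ∃ ζ : LinearMap.ker (P : X →ₗ[ℝ] X), ‖ζ‖ < 1 ∧ C.TT e ζ = y := by
  have hyn : ‖(y : Y)‖ = ‖y‖ := rfl
  have hQy : Q (y : Y) = 0 := Q_ker y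
  set β := Ctx.bb p ‖y‖ with hβ
  have hb : 0 < β := Ctx.bb_pos C.hp0 (norm_nonneg _) hy
  set v : Y := (y : Y) + β • f e with hv
  have hQv : Q v = β • e := by
    rw [hv, map_add, map_smul, C.hQ e he, hPe, hQy, zero_add]
  have hPhi : Phi f (Q v) = β • f e := by
    rw [hQv, C.Phi_smul, Phi_unit f he]
  have hv1 : ‖v‖ = 1 := by
    have h1 := C.line v
    rw [hPhi, hQv, norm_smul, he, mul_one, Real.norm_of_nonneg hb.le, hv, add_sub_cancel_right, hyn,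
      hβ, Ctx.bb_rpow C.hp0 (norm_nonneg _) hy] at h1
    apply rpow_inj C.hp0 (norm_nonneg _) zero_le_one
    rw [hv, h1, Real.one_rpow]
    ring
  set t := g v with ht
  have ht1 : ‖t‖ = 1 := C.hg.norm_eq v hv1
  have hft : f t = v := C.hfg v hv1
  have hPt : P t = β • e := by rw [← C.hQ t ht1, hft, hQv]
  have hn := C.pi_norm ht1
  rw [hft, hPt, C.Phi_smul, Phi_unit f he, hv, add_sub_cancel_right, hyn] at hn
  have hnorm : ‖piX C.H t‖ = ‖y‖ := by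
    show ‖(piX C.H t : X)‖ = _
    rw [piX_coe, hPt, ← hn]
  refine ⟨piX C.H t, by rw [hnorm]; exact hy, ?_⟩
  have hU : UU p e P (piX C.H t) = t := by
    rw [UU, hnorm, ← hβ, piX_coe, hPt, sub_add_cancel]
  apply Subtype.ext
  rw [C.TT_coe he hPe (by rw [hnorm]; exact hy), hU, hft, hnorm, ← hβ, hv, add_sub_cancel_right]

/-- The linear isometry of the kernels. -/
theorem exists_L (C : SCtx p P f g Q) {e : X} (he : ‖e‖ = 1) (hPe : P e = e) :
    ∃ L : LinearMap.ker (P : X →ₗ[ℝ] X) ≃ₗᵢ[ℝ] LinearMap.ker (Q : Y →ₗ[ℝ] X),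
      ∀ ζ, ‖ζ‖ < 1 → f (UU p e P ζ) = (L ζ : Y) + Ctx.bb p ‖ζ‖ • f e := by
  obtain ⟨L, hL⟩ := ball_linear (C.TT_zero he hPe) (C.TT_iso he hPe) (C.TT_onto he hPe)
  refine ⟨L, fun ζ hζ => ?_⟩
  rw [← hL ζ hζ, C.TT_coe he hPe hζ, sub_add_cancel]

/-- Differences of the values on the unit sphere of `W`. -/
theorem unit_sub (C : SCtx p P f g Q) {e e' : X} (he : ‖e‖ = 1) (hPe : P e = e) (he' : ‖e'‖ = 1)
    (hPe' : P e' = e') : f e - f e' = Phi f (e - e') := by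
  have hQ1 : Q (f e - f e') = e - e' := by
    rw [map_sub, C.hQ e he, C.hQ e' he', hPe, hPe']
  have h1 := C.eq_Phi_of_norm (y := f e - f e') (by rw [hQ1]; exact C.hf.iso _ _ he he')
  rwa [hQ1] at h1

/-- Independence of `e`. -/
theorem L_indep (C : SCtx p P f g Q) {e e' : X} (he : ‖e‖ = 1) (hPe : P e = e) (he' : ‖e'‖ = 1)
    (hPe' : P e' = e') {L L' : LinearMap.ker (P : X →ₗ[ℝ] X) ≃ₗᵢ[ℝ] LinearMap.ker (Q : Y →ₗ[ℝ] X)}
    (hL : ∀ ζ, ‖ζ‖ < 1 → f (UU p e P ζ) = (L ζ : Y) + Ctx.bb p ‖ζ‖ • f e)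
    (hL' : ∀ ζ, ‖ζ‖ < 1 → f (UU p e' P ζ) = (L' ζ : Y) + Ctx.bb p ‖ζ‖ • f e')
    {ζ : LinearMap.ker (P : X →ₗ[ℝ] X)} (hζ : ‖ζ‖ < 1) : L ζ = L' ζ := by
  have hU := C.norm_UU he hPe hζ
  have hU' := C.norm_UU he' hPe' hζ
  set b := Ctx.bb p ‖ζ‖ with hb
  have hQ1 : Q (f (UU p e P ζ) - f (UU p e' P ζ)) = b • (e - e') := by
    rw [map_sub, C.hQ _ hU, C.hQ _ hU', P_UU hPe, P_UU hPe', smul_sub]
  have hdiff : UU p e P ζ - UU p e' P ζ = b • (e - e') := by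
    rw [UU, UU, smul_sub]
    abel
  have h1 := C.eq_Phi_of_norm (y := f (UU p e P ζ) - f (UU p e' P ζ))
    (by rw [hQ1, C.hf.iso _ _ hU hU', hdiff])
  rw [hQ1, C.Phi_smul, ← C.unit_sub he hPe he' hPe', hL ζ hζ, hL' ζ hζ] at h1
  apply Subtype.ext
  have h2 : (L ζ : Y) + b • f e - ((L' ζ : Y) + b • f e') - b • (f e - f e') =
      (L ζ : Y) - (L' ζ : Y) := by
    rw [smul_sub]
    abel
  rw [h1, sub_self] at h2
  exact (sub_eq_zero.1 h2.symm)

/-- The formula on the sphere. -/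
theorem core (C : SCtx p P f g Q)
    {L : LinearMap.ker (P : X →ₗ[ℝ] X) ≃ₗᵢ[ℝ] LinearMap.ker (Q : Y →ₗ[ℝ] X)}
    (hL : ∀ e : X, ‖e‖ = 1 → P e = e → ∀ ζ, ‖ζ‖ < 1 →
      f (UU p e P ζ) = (L ζ : Y) + Ctx.bb p ‖ζ‖ • f e)
    {w : X} (hw : w ≠ 0) (hPw : P w = w) {ζ : LinearMap.ker (P : X →ₗ[ℝ] X)}
    (h : ‖ζ‖ ^ p + ‖w‖ ^ p = 1) : f ((ζ : X) + w) = (L ζ : Y) + Phi f w := by
  have hn : 0 < ‖w‖ := norm_pos_iff.2 hw
  have hrp : 0 < ‖w‖ ^ p := Real.rpow_pos_of_pos hn _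
  have hζ : ‖ζ‖ < 1 := by
    by_contra hcon
    have h3 : 1 ≤ ‖ζ‖ := not_lt.1 hcon
    have h4 := Real.one_le_rpow h3 C.hp0.le
    linarith
  have hbb : Ctx.bb p ‖ζ‖ = ‖w‖ := by
    rw [Ctx.bb]
    have e2 : 1 - ‖ζ‖ ^ p = ‖w‖ ^ p := by linarith
    rw [e2, ← Real.rpow_mul hn.le, one_div, mul_inv_cancel₀ C.hp0.ne', Real.rpow_one]
  set e := ‖w‖⁻¹ • w with he
  have he1 : ‖e‖ = 1 := unit_of_ne hw
  have hPe : P e = e := by rw [he, map_smul, hPw]
  have h1 := hL e he1 hPe ζ hζ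
  rw [UU, hbb] at h1
  have e3 : ‖w‖ • e = w := by rw [he, smul_smul, mul_inv_cancel₀ hn.ne', one_smul]
  rw [e3] at h1
  rw [h1]
  rfl

/-- Additivity on the unit ball of `W`. -/
theorem Phi_sub_ball (C : SCtx p P f g Q)
    {L : LinearMap.ker (P : X →ₗ[ℝ] X) ≃ₗᵢ[ℝ] LinearMap.ker (Q : Y →ₗ[ℝ] X)}
    (hL : ∀ e : X, ‖e‖ = 1 → P e = e → ∀ ζ, ‖ζ‖ < 1 →
      f (UU p e P ζ) = (L ζ : Y) + Ctx.bb p ‖ζ‖ • f e)
    {w w' : X} (hw : w ≠ 0) (hw' : w' ≠ 0) (hPw : P w = w) (hPw' : P w' = w') (h1 : ‖w‖ ≤ 1)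
    (h1' : ‖w'‖ ≤ 1) : Phi f w - Phi f w' = Phi f (w - w') := by
  by_contra hne
  set Δ := Phi f w - Phi f w' - Phi f (w - w') with hΔ
  have hΔ0 : Δ ≠ 0 := sub_ne_zero.2 hne
  have hd : 0 < ‖Δ‖ := norm_pos_iff.2 hΔ0
  set d := ‖Δ‖ with hddef
  have hQΔ : Q Δ = 0 := by
    rw [hΔ, map_sub, map_sub, C.Q_Phi hPw, C.Q_Phi hPw', C.Q_Phi (by rw [map_sub, hPw, hPw']),
      sub_self]
  let D : LinearMap.ker (Q : Y →ₗ[ℝ] X) := ⟨d⁻¹ • Δ, by
    rw [LinearMap.mem_ker]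
    show Q (d⁻¹ • Δ) = 0
    rw [map_smul, hQΔ, smul_zero]⟩
  set z := L.symm D with hz
  have hLz : (L z : Y) = d⁻¹ • Δ := by
    rw [hz, L.apply_symm_apply]
  have hDn : ‖D‖ = 1 := by
    show ‖d⁻¹ • Δ‖ = 1
    rw [norm_smul, norm_inv, norm_norm, inv_mul_cancel₀ hd.ne']
  have hzn : ‖z‖ = 1 := by rw [hz, L.symm.norm_map, hDn]
  have hLzn : ‖(L z : Y)‖ = 1 := by
    show ‖L z‖ = 1
    rw [L.norm_map, hzn]
  have hp0 := C.hp0
  set a := Ctx.bb p ‖w‖ with hadef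
  set a' := Ctx.bb p ‖w'‖ with ha'def
  have ha : 0 ≤ a := bb_nonneg' (norm_nonneg _) hp0 h1
  have ha' : 0 ≤ a' := bb_nonneg' (norm_nonneg _) hp0 h1'
  have hap : a ^ p = 1 - ‖w‖ ^ p := bb_rpow' hp0 (norm_nonneg _) h1
  have hap' : a' ^ p = 1 - ‖w'‖ ^ p := bb_rpow' hp0 (norm_nonneg _) h1'
  have hnζ : ‖a • z‖ = a := by rw [norm_smul, hzn, mul_one, Real.norm_of_nonneg ha]
  have hnζ' : ‖(-a') • z‖ = a' := by
    rw [norm_smul, hzn, mul_one, norm_neg, Real.norm_of_nonneg ha']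
  have hf1 := C.core hL hw hPw (ζ := a • z) (by rw [hnζ, hap]; ring)
  have hf2 := C.core hL hw' hPw' (ζ := (-a') • z) (by rw [hnζ', hap']; ring)
  have hPz : P (z : X) = 0 := P_ker z
  have hc1 : ((a • z : LinearMap.ker (P : X →ₗ[ℝ] X)) : X) = a • (z : X) := rfl
  have hc2 : (((-a') • z : LinearMap.ker (P : X →ₗ[ℝ] X)) : X) = (-a') • (z : X) := rfl
  have hc3 : (L (a • z) : Y) = a • (L z : Y) := by rw [map_smul]; rfl
  have hc4 : (L ((-a') • z) : Y) = (-a') • (L z : Y) := by rw [map_smul]; rfl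
  rw [hc1, hc3] at hf1
  rw [hc2, hc4] at hf2
  have hzX : ‖(z : X)‖ = 1 := hzn
  set u : X := a • (z : X) + w with hu
  set u' : X := (-a') • (z : X) + w' with hu'
  have hPu : P u = w := by rw [hu, map_add, map_smul, hPz, smul_zero, zero_add, hPw]
  have hPu' : P u' = w' := by rw [hu', map_add, map_smul, hPz, smul_zero, zero_add, hPw']
  have hu1 : ‖u‖ = 1 := by
    apply rpow_inj hp0 (norm_nonneg _) zero_le_one
    rw [C.H.pyth u, hPu, hu, add_sub_cancel_right, norm_smul, hzX, mul_one,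
      Real.norm_of_nonneg ha, hap, Real.one_rpow]
    ring
  have hu1' : ‖u'‖ = 1 := by
    apply rpow_inj hp0 (norm_nonneg _) zero_le_one
    rw [C.H.pyth u', hPu', hu', add_sub_cancel_right, norm_smul, hzX, mul_one, norm_neg,
      Real.norm_of_nonneg ha', hap', Real.one_rpow]
    ring
  have hdL : d • (L z : Y) = Δ := by
    rw [hLz, smul_smul, mul_inv_cancel₀ hd.ne', one_smul]
  have hy : f u - f u' = (a + a' + d) • (L z : Y) + Phi f (w - w') := by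
    rw [hf1, hf2, add_smul, add_smul, hdL, hΔ, neg_smul]
    abel
  have hQy : Q (f u - f u') = w - w' := by
    rw [map_sub, C.hQ _ hu1, C.hQ _ hu1', hPu, hPu']
  have h3 := C.line (f u - f u')
  have hsum : 0 ≤ a + a' := by linarith
  have e4 : f u - f u' - Phi f (w - w') = (a + a' + d) • (L z : Y) := by
    rw [hy, add_sub_cancel_right]
  rw [hQy, e4, norm_smul, hLzn, mul_one, Real.norm_of_nonneg (by linarith)] at h3
  have h4 := C.H.pyth (u - u')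
  have hPd : P (u - u') = w - w' := by rw [map_sub, hPu, hPu']
  have e5 : u - u' - (w - w') = (a + a') • (z : X) := by
    rw [hu, hu', neg_smul, add_smul]
    abel
  rw [hPd, e5, norm_smul, hzX, mul_one, Real.norm_of_nonneg hsum] at h4
  have h5 : ‖f u - f u'‖ = ‖u - u'‖ := C.hf.iso _ _ hu1 hu1'
  rw [h5, h4] at h3
  have h6 : a + a' = a + a' + d :=
    rpow_inj hp0 hsum (by linarith) (by linarith)
  linarith

/-- `Φ` is additive on `W`. -/
theorem Phi_sub (C : SCtx p P f g Q)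
    {L : LinearMap.ker (P : X →ₗ[ℝ] X) ≃ₗᵢ[ℝ] LinearMap.ker (Q : Y →ₗ[ℝ] X)}
    (hL : ∀ e : X, ‖e‖ = 1 → P e = e → ∀ ζ, ‖ζ‖ < 1 →
      f (UU p e P ζ) = (L ζ : Y) + Ctx.bb p ‖ζ‖ • f e)
    {w w' : X} (hPw : P w = w) (hPw' : P w' = w') : Phi f w - Phi f w' = Phi f (w - w') := by
  by_cases hw : w = 0
  · subst hw
    rw [Phi_zero, zero_sub, zero_sub, C.Phi_neg]
  by_cases hw' : w' = 0
  · subst hw'
    rw [Phi_zero, sub_zero, sub_zero]
  have hr : 0 < ‖w‖ + ‖w'‖ := add_pos (norm_pos_iff.2 hw) (norm_pos_iff.2 hw')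
  set r := ‖w‖ + ‖w'‖ with hrdef
  have h1 : ‖r⁻¹ • w‖ ≤ 1 := by
    rw [norm_smul, norm_inv, Real.norm_of_nonneg hr.le, inv_mul_le_iff₀ hr, mul_one]
    linarith [norm_nonneg w']
  have h2 : ‖r⁻¹ • w'‖ ≤ 1 := by
    rw [norm_smul, norm_inv, Real.norm_of_nonneg hr.le, inv_mul_le_iff₀ hr, mul_one]
    linarith [norm_nonneg w]
  have h3 := C.Phi_sub_ball hL (w := r⁻¹ • w) (w' := r⁻¹ • w')
    (smul_ne_zero (inv_ne_zero hr.ne') hw) (smul_ne_zero (inv_ne_zero hr.ne') hw')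
    (by rw [map_smul, hPw]) (by rw [map_smul, hPw']) h1 h2
  rw [← smul_sub, C.Phi_smul, C.Phi_smul, C.Phi_smul, ← smul_sub] at h3
  exact smul_right_injective _ (inv_ne_zero hr.ne') h3

theorem Phi_add (C : SCtx p P f g Q)
    {L : LinearMap.ker (P : X →ₗ[ℝ] X) ≃ₗᵢ[ℝ] LinearMap.ker (Q : Y →ₗ[ℝ] X)}
    (hL : ∀ e : X, ‖e‖ = 1 → P e = e → ∀ ζ, ‖ζ‖ < 1 →
      f (UU p e P ζ) = (L ζ : Y) + Ctx.bb p ‖ζ‖ • f e)
    {w w' : X} (hPw : P w = w) (hPw' : P w' = w') : Phi f (w + w') = Phi f w + Phi f w' := by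
  have := C.Phi_sub hL hPw (w' := -w') (by rw [map_neg, hPw'])
  rw [sub_neg_eq_add, C.Phi_neg, sub_neg_eq_add] at this
  exact this.symm

/-- **The extension.** -/
theorem exists_extension (C : SCtx p P f g Q) {e0 : X} (he0 : ‖e0‖ = 1) (hPe0 : P e0 = e0) :
    ∃ T : X ≃ₗᵢ[ℝ] Y, ∀ x, ‖x‖ = 1 → T x = f x := by
  obtain ⟨L, hL0⟩ := C.exists_L he0 hPe0
  have hL : ∀ e : X, ‖e‖ = 1 → P e = e → ∀ ζ, ‖ζ‖ < 1 →
      f (UU p e P ζ) = (L ζ : Y) + Ctx.bb p ‖ζ‖ • f e := by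
    intro e he hPe ζ hζ
    obtain ⟨L', hL'⟩ := C.exists_L he hPe
    rw [hL' ζ hζ, C.L_indep he0 hPe0 he hPe hL0 hL' hζ]
  let Tl : X →ₗ[ℝ] Y :=
    { toFun := fun x => (L (piX C.H x) : Y) + Phi f (P x)
      map_add' := fun x x' => by
        simp only [map_add, Submodule.coe_add]
        rw [C.Phi_add hL (C.H.idem x) (C.H.idem x')]
        abel
      map_smul' := fun c x => by
        simp only [map_smul, RingHom.id_apply, Submodule.coe_smul, smul_add]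
        rw [C.Phi_smul] }
  have hTl : ∀ x, Tl x = (L (piX C.H x) : Y) + Phi f (P x) := fun _ => rfl
  have hQL : ∀ ζ, Q (L ζ : Y) = 0 := fun ζ => Q_ker (L ζ)
  have hQT : ∀ x, Q (Tl x) = P x := fun x => by
    rw [hTl, map_add, hQL, C.Q_Phi (C.H.idem x), zero_add]
  have hnorm : ∀ x, ‖Tl x‖ = ‖x‖ := fun x => by
    apply rpow_inj C.hp0 (norm_nonneg _) (norm_nonneg _)
    rw [C.line (Tl x), C.H.pyth x, hQT]
    have e1 : Tl x - Phi f (P x) = (L (piX C.H x) : Y) := by rw [hTl, add_sub_cancel_right]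
    have e2 : ‖(L (piX C.H x) : Y)‖ = ‖x - P x‖ := by
      show ‖L (piX C.H x)‖ = _
      rw [L.norm_map]
      rfl
    rw [e1, e2]
  have hsurj : Function.Surjective Tl := by
    intro y
    refine ⟨(L.symm (C.piY y) : X) + Q y, ?_⟩
    set w := L.symm (C.piY y) with hw
    have hPw : P (w : X) = 0 := P_ker w
    have h1 : P ((w : X) + Q y) = Q y := by rw [map_add, hPw, zero_add, C.hPQ]
    have h2 : piX C.H ((w : X) + Q y) = w := by
      apply Subtype.ext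
      rw [piX_coe, h1, add_sub_cancel_right]
    rw [hTl, h2, h1, hw, L.apply_symm_apply, piY_coe, sub_add_cancel]
  let Li : X →ₗᵢ[ℝ] Y := ⟨Tl, hnorm⟩
  have hpos : ∀ t : X, ‖t‖ = 1 → P t ≠ 0 → Tl t = f t := by
    intro t ht hw
    have h1 := C.H.pyth t
    rw [ht, Real.one_rpow] at h1
    have h2 := C.core hL hw (C.H.idem t) (ζ := piX C.H t) (by
      show ‖t - P t‖ ^ p + _ = 1
      linarith)
    rw [piX_coe, sub_add_cancel] at h2
    rw [hTl, h2]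
  have hzero : ∀ t : X, ‖t‖ = 1 → P t = 0 → Tl t = f t := by
    intro t ht hb
    by_contra hne
    have hδ : 0 < ‖Tl t - f t‖ := norm_pos_iff.2 (sub_ne_zero.2 hne)
    set δ := ‖Tl t - f t‖ with hδdef
    set s := δ / 8 with hs
    have hs0 : 0 < s := by positivity
    set w := t + s • e0 with hw
    have hPw : P w = s • e0 := by
      rw [hw, map_add, map_smul, hb, hPe0, zero_add]
    have hw0 : w ≠ 0 := by
      intro h
      rw [h, map_zero] at hPw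
      have h2 : ‖s • e0‖ = s := by
        rw [norm_smul, he0, mul_one, Real.norm_of_nonneg hs0.le]
      rw [← hPw, norm_zero] at h2
      linarith
    have hwn : 0 < ‖w‖ := norm_pos_iff.2 hw0
    set u := ‖w‖⁻¹ • w with hu
    have hu1 : ‖u‖ = 1 := unit_of_ne hw0
    have hPu : P u ≠ 0 := by
      rw [hu, map_smul, hPw]
      refine smul_ne_zero (inv_ne_zero hwn.ne') (smul_ne_zero hs0.ne' ?_)
      intro h
      rw [h, norm_zero] at he0
      linarith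
    have hwt : ‖w - t‖ = s := by
      rw [hw, add_sub_cancel_left, norm_smul, he0, mul_one, Real.norm_of_nonneg hs0.le]
    have huw : ‖u - w‖ ≤ s := by
      have e1 : u - w = (‖w‖⁻¹ - 1) • w := by rw [hu, sub_smul, one_smul]
      rw [e1, norm_smul, Real.norm_eq_abs]
      have e2 : |‖w‖⁻¹ - 1| * ‖w‖ = |1 - ‖w‖| := by
        have e3 : ‖w‖⁻¹ - 1 = (1 - ‖w‖) * ‖w‖⁻¹ := by
          rw [sub_mul, one_mul, mul_inv_cancel₀ hwn.ne']
        rw [e3, abs_mul, abs_of_pos (inv_pos.2 hwn), mul_assoc, inv_mul_cancel₀ hwn.ne', mul_one]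
      rw [e2]
      have h7 := abs_norm_sub_norm_le w t
      rw [ht, hwt] at h7
      rwa [abs_sub_comm]
    have hut : ‖u - t‖ ≤ 2 * s := by
      have := norm_add_le (u - w) (w - t)
      rw [sub_add_sub_cancel, hwt] at this
      linarith
    have h1 : ‖Tl t - Tl u‖ ≤ 2 * s := by
      rw [← map_sub, hnorm, norm_sub_rev]
      exact hut
    have h2 : ‖f u - f t‖ ≤ 2 * s := by
      rw [C.hf.iso _ _ hu1 ht]
      exact hut
    have h3 : Tl u = f u := hpos u hu1 hPu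
    have h4 : Tl t - f t = (Tl t - Tl u) + (f u - f t) := by
      rw [h3]; abel
    have h5 := norm_add_le (Tl t - Tl u) (f u - f t)
    rw [← h4, ← hδdef] at h5
    rw [hs] at h1 h2
    linarith
  refine ⟨LinearIsometryEquiv.ofSurjective Li hsurj, fun x hx => ?_⟩
  show Tl x = f x
  by_cases h : P x = 0
  · exact hzero x hx h
  · exact hpos x hx h

end SCtx

/-- Strict convexity of the range in the form used above. -/
theorem hsc_of_strictConvex {P : X →L[ℝ] X} (hP : ∀ x, P (P x) = P x)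
    (hS : StrictConvexSpace ℝ (LinearMap.range P.toLinearMap)) :
    ∀ a b : X, P a = a → P b = b → ‖a + b‖ = ‖a‖ + ‖b‖ → ‖a‖ = ‖b‖ → a = b := by
  intro a b ha hb hab hn
  let a' : LinearMap.range P.toLinearMap := ⟨a, ⟨a, ha⟩⟩
  let b' : LinearMap.range P.toLinearMap := ⟨b, ⟨b, hb⟩⟩
  have h1 : SameRay ℝ a' b' := sameRay_iff_norm_add.2 hab
  have h2 := sameRay_iff_norm_smul_eq.1 h1
  by_cases h0 : ‖a‖ = 0
  · have h3 : a = 0 := norm_eq_zero.1 h0
    have h4 : b = 0 := norm_eq_zero.1 (by rw [← hn, h0])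
    rw [h3, h4]
  have h5 : ‖a‖ • a = ‖a‖ • b := by
    have h6 := congrArg Subtype.val h2
    have h7 : ‖a‖ • b = ‖b‖ • a := h6
    rw [← hn] at h7
    exact h7.symm
  exact smul_right_injective _ h0 h5

/-- **Tingley's problem for `Z ⊕_p W`**, `Z` arbitrary, `W` strictly convex, source version:
`X` infinite dimensional. -/
theorem extends_of_isLpSummand {p : ℝ} {P : X →L[ℝ] X} (H : IsLpSummand p P) (hp : 1 < p)
    (hS : StrictConvexSpace ℝ (LinearMap.range P.toLinearMap)) (hP0 : P ≠ 0)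
    (hX : ¬ FiniteDimensional ℝ X) {f : X → Y} (hf : IsSphereIso f) :
    ∃ T : X ≃ₗᵢ[ℝ] Y, ∀ x, ‖x‖ = 1 → T x = f x := by
  obtain ⟨g, hg, hgf, hfg⟩ := exists_isSphereIso_inv hf
  have hY := not_finiteDimensional_target hf hX
  have hodd : ∀ x : X, ‖x‖ = 1 → f (-x) = - f x := fun x hx => Inf.odd_of_isSphereIso hf hx
  have hgodd : ∀ y : Y, ‖y‖ = 1 → g (-y) = - g y := fun y hy => Inf.odd_of_isSphereIso hg hy
  have hsc := hsc_of_strictConvex H.idem hS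
  obtain ⟨Q, h1, h2, h3⟩ := exists_Q H hp hsc (four_le_rank_of_infinite hY) hf hg hgf hfg hodd hgodd
  obtain ⟨x, hx⟩ : ∃ x, P x ≠ 0 := by
    by_contra hcon
    push Not at hcon
    exact hP0 (ContinuousLinearMap.ext hcon)
  have hn : 0 < ‖P x‖ := norm_pos_iff.2 hx
  exact SCtx.exists_extension (e0 := ‖P x‖⁻¹ • P x)
    (⟨H, hp, hsc, hf, hg, hgf, hfg, hodd, h1, h2, h3⟩ : SCtx p P f g Q)
    (unit_of_ne hx) (by rw [map_smul, H.idem])

/-- Map of the unit spheres, source version. -/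
theorem extends_sum_source (f : sphere (0 : X) 1 → sphere (0 : Y) 1) (hf : Isometry f)
    (hs : Function.Surjective f) {p : ℝ} {P : X →L[ℝ] X} (H : IsLpSummand p P) (hp : 1 < p)
    (hS : StrictConvexSpace ℝ (LinearMap.range P.toLinearMap)) (hP0 : P ≠ 0)
    (hX : ¬ FiniteDimensional ℝ X) : ∃ T : X ≃ₗᵢ[ℝ] Y, ∀ x : sphere (0 : X) 1, T x = f x := by
  obtain ⟨g, hg, hgf⟩ := exists_ambient f hf hs
  obtain ⟨T, hT⟩ := extends_of_isLpSummand H hp hS hP0 hX hg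
  exact ⟨T, fun x => by rw [hT x (by simpa using x.2), hgf]⟩

/-- Map of the unit spheres, target version. -/
theorem extends_sum_target (f : sphere (0 : X) 1 → sphere (0 : Y) 1) (hf : Isometry f)
    (hs : Function.Surjective f) {p : ℝ} {P : Y →L[ℝ] Y} (H : IsLpSummand p P) (hp : 1 < p)
    (hS : StrictConvexSpace ℝ (LinearMap.range P.toLinearMap)) (hP0 : P ≠ 0)
    (hY : ¬ FiniteDimensional ℝ Y) : ∃ T : X ≃ₗᵢ[ℝ] Y, ∀ x : sphere (0 : X) 1, T x = f x := by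
  obtain ⟨h, hh, hhs, htr⟩ := exists_inverse f hf hs
  exact htr (extends_sum_source h hh hhs H hp hS hP0 hY)

end Vale.Agent.Lib.P084.LpSum
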