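/-
Tingley's problem for `Z ⊕_p ℝ`, `1 < p < ∞`, `Z` arbitrary: a surjective sphere isometry of a space
with a one dimensional `L_p`-summand extends to a linear isometry.

`e` unit, `l` a functional, `l e = 1`, `‖x‖ ^ p = ‖x - l x • e‖ ^ p + |l x| ^ p`.
(1) Strict convexity of `t ↦ |t| ^ p` and the chord flatness give that `l` kills all defects of `Y`-triples,
so `l ∘ g` is additive on unit triples of `Y`, hence linear: `ψ ∘ f = l` on the sphere.
(2) `{v unit : ψ v = 1} = {f e}`.  For `t` unit, `b = l t > 0`, `t' = 2 b e - t`: `f t + f t'` has norm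
`2 b` and `ψ` value `2 b`, so it equals `2 b f e`.  So `‖f t - ψ (f t) • f e‖ = ‖t - l t • e‖`: `Y` is the
same `p`-sum.
(3) On the open unit ball of `ker l`, `T ζ = f (ζ + b e) - b f e`, `b = (1 - ‖ζ‖ ^ p) ^ (1 / p)`, is an isometry
onto the open unit ball of `ker ψ` fixing `0`; the local Mazur-Ulam theorem makes it linear.
-/
import Vale.Agent.Lib.P084.RNP.Top
import Vale.Agent.Lib.P084.RNP.FaceTree
import Vale.Agent.Lib.P084.NS.LocalMU
import Vale.Agent.Lib.P084.LpSum.Common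
import Vale.Agent.Lib.P084.LpSum.Ball
import Vale.Agent.Lib.P084.LpSum.Def

namespace Vale.Agent.Lib.P084.LpSum

open Vale.Agent.Lib.P084.UC Vale.Agent.Lib.P084.RNP Vale.Agent.Lib.P084.NS
open Metric

universe u v

variable {X : Type u} {Y : Type v} [NormedAddCommGroup X] [NormedSpace ℝ X] [NormedAddCommGroup Y]
  [NormedSpace ℝ Y]

theorem rpow_inj {p a b : ℝ} (hp : 0 < p) (ha : 0 ≤ a) (hb : 0 ≤ b) (h : a ^ p = b ^ p) : a = b :=
  (Real.rpow_left_inj ha hb hp.ne').1 h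

/-- Real lemma: flatness in the `p`-sum kills the line coordinate. -/
theorem flat_real {p : ℝ} (hp : 1 < p) {s β A B a : ℝ} (hA : 0 ≤ A) (hB : 0 ≤ B) (ha : 0 ≤ a)
    (hab : 2 * a ≤ A + B) (h1 : A ^ p + |s + β| ^ p = a ^ p + |s| ^ p)
    (h2 : B ^ p + |s - β| ^ p = a ^ p + |s| ^ p) : β = 0 := by
  have hp0 : 0 < p := by linarith
  have hc := strictConvexOn_rpow hp
  have hmid : ∀ x y : ℝ, 0 ≤ x → 0 ≤ y → ((x + y) / 2) ^ p ≤ (x ^ p + y ^ p) / 2 := by
    intro x y hx hy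
    have := hc.convexOn.2 (Set.mem_Ici.2 hx) (Set.mem_Ici.2 hy) (by norm_num : (0 : ℝ) ≤ 1 / 2)
      (by norm_num : (0 : ℝ) ≤ 1 / 2) (by norm_num)
    simp only [smul_eq_mul] at this
    have e : 1 / 2 * x + 1 / 2 * y = (x + y) / 2 := by ring
    rw [e] at this
    linarith
  have hu : 0 ≤ |s + β| := abs_nonneg _
  have hv : 0 ≤ |s - β| := abs_nonneg _
  have huv : 2 * |s| ≤ |s + β| + |s - β| := by
    have : |(s + β) + (s - β)| ≤ |s + β| + |s - β| := abs_add_le _ _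
    have e : (s + β) + (s - β) = 2 * s := by ring
    rw [e, abs_mul, abs_of_pos (by norm_num : (0 : ℝ) < 2)] at this
    exact this
  have c1 : a ^ p ≤ (A ^ p + B ^ p) / 2 :=
    (Real.rpow_le_rpow ha (by linarith) hp0.le).trans (hmid A B hA hB)
  have c2 : |s| ^ p ≤ ((|s + β| + |s - β|) / 2) ^ p :=
    Real.rpow_le_rpow (abs_nonneg _) (by linarith) hp0.le
  have c3 := hmid _ _ hu hv
  have huev : |s + β| = |s - β| := by
    by_contra hne
    have := hc.2 (Set.mem_Ici.2 hu) (Set.mem_Ici.2 hv) hne (by norm_num : (0 : ℝ) < 1 / 2)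
      (by norm_num : (0 : ℝ) < 1 / 2) (by norm_num)
    simp only [smul_eq_mul] at this
    have e : 1 / 2 * |s + β| + 1 / 2 * |s - β| = (|s + β| + |s - β|) / 2 := by ring
    rw [e] at this
    linarith
  have hus : |s + β| = |s| := by
    apply rpow_inj hp0 hu (abs_nonneg _)
    rw [← huev] at h2 c2
    have e : (|s + β| + |s + β|) / 2 = |s + β| := by ring
    rw [e] at c2
    linarith
  have h3 : (s + β) ^ 2 = s ^ 2 := by rw [← sq_abs (s + β), hus, sq_abs]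
  have h4 : (s - β) ^ 2 = s ^ 2 := by rw [← sq_abs (s - β), ← huev, hus, sq_abs]
  have h5 : β ^ 2 = 0 := by nlinarith
  exact pow_eq_zero_iff (two_ne_zero) |>.1 h5

namespace IsLpLine

variable {p : ℝ} {e : X} {l : X →L[ℝ] ℝ}

theorem abs_le (H : IsLpLine p e l) (hp : 1 < p) (x : X) : |l x| ≤ ‖x‖ := by
  have hp0 : 0 < p := by linarith
  have h1 := H.pyth x
  have h2 : 0 ≤ ‖x - l x • e‖ ^ p := by positivity
  have h3 : |l x| ^ p ≤ ‖x‖ ^ p := by linarith
  exact (Real.rpow_le_rpow_iff (abs_nonneg _) (norm_nonneg _) hp0).1 h3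

/-- Flat directions are killed by `l`. -/
theorem flat (H : IsLpLine p e l) (hp : 1 < p) {v ε : X} (h1 : ‖v + ε‖ = ‖v‖) (h2 : ‖v - ε‖ = ‖v‖) :
    l ε = 0 := by
  refine flat_real hp (s := l v) (A := ‖v + ε - l (v + ε) • e‖) (B := ‖v - ε - l (v - ε) • e‖)
    (a := ‖v - l v • e‖) (norm_nonneg _) (norm_nonneg _) (norm_nonneg _) ?_ ?_ ?_
  · have e1 : (2 : ℝ) • (v - l v • e) = (v + ε - l (v + ε) • e) + (v - ε - l (v - ε) • e) := by
      simp only [map_add, map_sub]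
      module
    have h3 := norm_add_le (v + ε - l (v + ε) • e) (v - ε - l (v - ε) • e)
    rw [← e1, norm_smul] at h3
    simpa using h3
  · have h3 := H.pyth (v + ε)
    rw [h1, H.pyth v] at h3
    have e2 : |l v + l ε| = |l (v + ε)| := by rw [map_add]
    rw [e2]
    linarith
  · have h3 := H.pyth (v - ε)
    rw [h2, H.pyth v] at h3
    have e2 : |l v - l ε| = |l (v - ε)| := by rw [map_sub]
    rw [e2]
    linarith

/-- A unit vector on which `l` is one is `e`. -/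
theorem eq_of_l_eq_one (H : IsLpLine p e l) (hp : 1 < p) {u : X} (hu : ‖u‖ = 1) (h : l u = 1) :
    u = e := by
  have hp0 : 0 < p := by linarith
  have h1 := H.pyth u
  rw [hu, h, abs_one, Real.one_rpow, one_smul] at h1
  have h2 : ‖u - e‖ ^ p = 0 := by linarith
  have h3 : ‖u - e‖ = 0 := by
    rwa [Real.rpow_eq_zero (norm_nonneg _) hp0.ne'] at h2
  exact sub_eq_zero.1 (norm_eq_zero.1 h3)

/-- The reflected point. -/
theorem bar_unit (H : IsLpLine p e l) (hp : 1 < p) {t : X} (ht : ‖t‖ = 1) :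
    ‖(2 * l t) • e - t‖ = 1 := by
  have hp0 : 0 < p := by linarith
  have h0 := H.pyth t
  have hl : l ((2 * l t) • e - t) = l t := by
    rw [map_sub, map_smul, H.l_e, smul_eq_mul]
    ring
  have h1 := H.pyth ((2 * l t) • e - t)
  rw [hl] at h1
  have e1 : (2 * l t) • e - t - l t • e = -(t - l t • e) := by module
  rw [e1, norm_neg, ← h0, ht, Real.one_rpow] at h1
  apply rpow_inj hp0 (norm_nonneg _) zero_le_one
  rw [h1, Real.one_rpow]

end IsLpLine

/-- The standing assumptions. -/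
structure Ctx (p : ℝ) (e : X) (l : X →L[ℝ] ℝ) (f : X → Y) (g : Y → X) (ψ : Y →L[ℝ] ℝ) : Prop where
  H : IsLpLine p e l
  hp : 1 < p
  hf : IsSphereIso f
  hg : IsSphereIso g
  hgf : ∀ x : X, ‖x‖ = 1 → g (f x) = x
  hfg : ∀ y : Y, ‖y‖ = 1 → f (g y) = y
  hodd : ∀ x : X, ‖x‖ = 1 → f (-x) = - f x
  hψb : ∀ y, |ψ y| ≤ ‖y‖
  hψ : ∀ x : X, ‖x‖ = 1 → ψ (f x) = l x

/-- The common functional. -/
theorem exists_psi {p : ℝ} {e : X} {l : X →L[ℝ] ℝ} {f : X → Y} {g : Y → X} (H : IsLpLine p e l)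
    (hp : 1 < p) (hrank : (4 : Cardinal) ≤ Module.rank ℝ Y) (hf : IsSphereIso f)
    (hg : IsSphereIso g) (hgf : ∀ x : X, ‖x‖ = 1 → g (f x) = x)
    (hfg : ∀ y : Y, ‖y‖ = 1 → f (g y) = y) (hodd : ∀ x : X, ‖x‖ = 1 → f (-x) = - f x)
    (hgodd : ∀ y : Y, ‖y‖ = 1 → g (-y) = - g y) :
    ∃ ψ : Y →L[ℝ] ℝ, (∀ y, |ψ y| ≤ ‖y‖) ∧ ∀ x : X, ‖x‖ = 1 → ψ (f x) = l x := by
  obtain ⟨ψ, h1, h2⟩ := exists_functional_of_additive hrank (H := fun y => l (g y))
    (fun y hy => by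
      show l (g (-y)) = - l (g y)
      rw [hgodd y hy, map_neg])
    (fun y hy => by
      have := H.abs_le hp (g y)
      rwa [hg.norm_eq y hy] at this)
    (fun y y' hy hy' => by
      show |l (g y) - l (g y')| ≤ _
      rw [← map_sub, ← hg.iso y y' hy hy']
      exact H.abs_le hp _)
    (fun y y' hy hy' hyy' => by
      show l (g (y + y')) = l (g y) + l (g y')
      set x := g y with hx
      set z := g y' with hz
      set w := g (-(y + y')) with hw
      have hx1 : ‖x‖ = 1 := hg.norm_eq y hy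
      have hz1 : ‖z‖ = 1 := hg.norm_eq y' hy'
      have hw1 : ‖w‖ = 1 := hg.norm_eq _ (by rw [norm_neg]; exact hyy')
      have hfx : f x = y := hfg y hy
      have hfz : f z = y' := hfg y' hy'
      have hfw : f w = -(y + y') := hfg _ (by rw [norm_neg]; exact hyy')
      have hwe : w = - g (y + y') := hgodd _ hyy'
      have hxw : ‖x + w‖ = 1 := by
        rw [← norm_f_add' hf hodd hx1 hw1, hfx, hfw]
        have : y + -(y + y') = - y' := by abel
        rw [this, norm_neg]; exact hy'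
      have hzw : ‖z + w‖ = 1 := by
        rw [← norm_f_add' hf hodd hz1 hw1, hfz, hfw]
        have : y' + -(y + y') = - y := by abel
        rw [this, norm_neg]; exact hy
      have h3 := two_add_eq hf hodd hx1 hw1 hxw hz1 (by rw [hfw, hfx, hfz]; abel)
      have h4 := two_add_eq hf hodd hz1 hw1 hzw hx1 (by rw [hfw, hfx, hfz]; abel)
      have hflat : l (x + z + w) = 0 := by
        refine H.flat hp (v := x - z) ?_ ?_
        · have e : x - z + (x + z + w) = (2 : ℝ) • x + w := by module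
          rw [e, h3]
        · have e : x - z - (x + z + w) = -((2 : ℝ) • z + w) := by module
          rw [e, norm_neg, h4, norm_sub_rev]
      rw [map_add, map_add, hwe, map_neg] at hflat
      linarith)
  exact ⟨ψ, h1, fun x hx => by rw [h2 _ (hf.norm_eq x hx)]; show l (g (f x)) = l x; rw [hgf x hx]⟩

namespace Ctx

variable {p : ℝ} {e : X} {l : X →L[ℝ] ℝ} {f : X → Y} {g : Y → X} {ψ : Y →L[ℝ] ℝ}

theorem hp0 (C : Ctx p e l f g ψ) : 0 < p := by linarith [C.hp]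

/-- The top of `ψ` on the sphere of `Y` is `f e`. -/
theorem eq_fe (C : Ctx p e l f g ψ) {v : Y} (hv : ‖v‖ = 1) (h : ψ v = 1) : v = f e := by
  have h1 : ‖g v‖ = 1 := C.hg.norm_eq v hv
  have h2 : l (g v) = 1 := by rw [← C.hψ _ h1, C.hfg v hv, h]
  have h3 := C.H.eq_of_l_eq_one C.hp h1 h2
  rw [← h3, C.hfg v hv]

theorem K_eq (C : Ctx p e l f g ψ) {t : X} (ht : ‖t‖ = 1) (hb : 0 < l t) :
    f t + f ((2 * l t) • e - t) = (2 * l t) • f e := by
  have ht' := C.H.bar_unit C.hp ht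
  have hl : l ((2 * l t) • e - t) = l t := by
    rw [map_sub, map_smul, C.H.l_e, smul_eq_mul]
    ring
  set K := f t + f ((2 * l t) • e - t) with hK
  have hn : ‖K‖ = 2 * l t := by
    rw [hK, norm_f_add' C.hf C.hodd ht ht']
    have e1 : t + ((2 * l t) • e - t) = (2 * l t) • e := by abel
    rw [e1, norm_smul, C.H.norm_e, mul_one, Real.norm_of_nonneg (by positivity)]
  have hψK : ψ K = 2 * l t := by
    rw [hK, map_add, C.hψ t ht, C.hψ _ ht', hl]
    ring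
  have hb2 : (2 * l t) ≠ 0 := by positivity
  have hv := C.eq_fe (v := (2 * l t)⁻¹ • K)
    (by rw [norm_smul, hn, norm_inv, Real.norm_of_nonneg (by positivity), inv_mul_cancel₀ hb2])
    (by rw [map_smul, hψK, smul_eq_mul, inv_mul_cancel₀ hb2])
  rw [← hv, smul_smul, mul_inv_cancel₀ hb2, one_smul]

theorem pi_pos (C : Ctx p e l f g ψ) {t : X} (ht : ‖t‖ = 1) (hb : 0 < l t) :
    ‖f t - ψ (f t) • f e‖ = ‖t - l t • e‖ := by
  have ht' := C.H.bar_unit C.hp ht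
  have hK := C.K_eq ht hb
  rw [C.hψ t ht]
  have e1 : f t - l t • f e = (1 / 2 : ℝ) • (f t - f ((2 * l t) • e - t)) := by
    have e2 : l t • f e = (1 / 2 : ℝ) • ((2 * l t) • f e) := by
      rw [smul_smul]; congr 1; ring
    rw [e2, ← hK]
    module
  have e3 : t - ((2 * l t) • e - t) = (2 : ℝ) • (t - l t • e) := by module
  rw [e1, norm_smul, C.hf.iso _ _ ht ht', e3, norm_smul]
  norm_num
  ring

theorem pi_norm (C : Ctx p e l f g ψ) {t : X} (ht : ‖t‖ = 1) :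
    ‖f t - ψ (f t) • f e‖ = ‖t - l t • e‖ := by
  rcases lt_trichotomy (l t) 0 with h | h | h
  · have ht' : ‖-t‖ = 1 := by rw [norm_neg]; exact ht
    have h1 := C.pi_pos ht' (by rw [map_neg]; linarith)
    rw [C.hodd t ht, map_neg, map_neg, neg_smul, neg_smul, sub_neg_eq_add, sub_neg_eq_add] at h1
    have e1 : - f t + ψ (f t) • f e = -(f t - ψ (f t) • f e) := by abel
    have e2 : -t + l t • e = -(t - l t • e) := by abel
    rwa [e1, e2, norm_neg, norm_neg] at h1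
  · rw [C.hψ t ht, h, zero_smul, zero_smul, sub_zero, sub_zero, C.hf.norm_eq t ht, ht]
  · exact C.pi_pos ht h

/-- `Y` is the same `p`-sum. -/
theorem line (C : Ctx p e l f g ψ) : IsLpLine p (f e) ψ := by
  have he := C.H.norm_e
  have hψe : ψ (f e) = 1 := by rw [C.hψ e he, C.H.l_e]
  refine ⟨C.hf.norm_eq e he, hψe, fun y => ?_⟩
  by_cases hy : y = 0
  · subst hy
    simp [Real.zero_rpow C.hp0.ne']
  have hr : 0 < ‖y‖ := norm_pos_iff.2 hy
  set r := ‖y‖ with hrdef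
  set v : Y := r⁻¹ • y with hv
  have hv1 : ‖v‖ = 1 := by
    rw [hv, norm_smul, norm_inv, norm_norm, inv_mul_cancel₀ hr.ne']
  have hy' : y = r • v := by
    rw [hv, smul_smul, mul_inv_cancel₀ hr.ne', one_smul]
  have ht1 : ‖g v‖ = 1 := C.hg.norm_eq v hv1
  have h1 := C.pi_norm ht1
  rw [C.hfg v hv1] at h1
  have h2 := C.H.pyth (g v)
  have h3 : l (g v) = ψ v := by
    have := C.hψ _ ht1
    rw [C.hfg v hv1] at this
    exact this.symm
  rw [ht1, Real.one_rpow, ← h1, h3] at h2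
  have e1 : y - ψ y • f e = r • (v - ψ v • f e) := by
    rw [hy', map_smul, smul_eq_mul]
    module
  have e2 : |ψ y| = r * |ψ v| := by
    rw [hy', map_smul, smul_eq_mul, abs_mul, abs_of_pos hr]
  rw [e1, e2, norm_smul, Real.norm_of_nonneg hr.le, Real.mul_rpow hr.le (norm_nonneg _),
    Real.mul_rpow hr.le (abs_nonneg _), ← mul_add, ← h2, mul_one]

/-- The height function. -/
noncomputable def bb (p r : ℝ) : ℝ := (1 - r ^ p) ^ (1 / p)

theorem bb_pos {p r : ℝ} (hp0 : 0 < p) (h0 : 0 ≤ r) (h1 : r < 1) : 0 < bb p r := by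
  have : r ^ p < 1 := Real.rpow_lt_one h0 h1 hp0
  exact Real.rpow_pos_of_pos (by linarith) _

theorem bb_rpow {p r : ℝ} (hp0 : 0 < p) (h0 : 0 ≤ r) (h1 : r < 1) : bb p r ^ p = 1 - r ^ p := by
  have : r ^ p < 1 := Real.rpow_lt_one h0 h1 hp0
  rw [bb, ← Real.rpow_mul (by linarith), one_div, inv_mul_cancel₀ hp0.ne', Real.rpow_one]

/-- The unit vector over `ζ`. -/
noncomputable def UU (p : ℝ) (e : X) (l : X →L[ℝ] ℝ) (ζ : LinearMap.ker (l : X →ₗ[ℝ] ℝ)) : X :=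
  (ζ : X) + bb p ‖ζ‖ • e

theorem l_ker (ζ : LinearMap.ker (l : X →ₗ[ℝ] ℝ)) : l (ζ : X) = 0 := LinearMap.mem_ker.1 ζ.2

theorem l_UU (C : Ctx p e l f g ψ) (ζ : LinearMap.ker (l : X →ₗ[ℝ] ℝ)) :
    l (UU p e l ζ) = bb p ‖ζ‖ := by
  rw [UU, map_add, map_smul, C.H.l_e, l_ker, zero_add, smul_eq_mul, mul_one]

theorem sub_UU (C : Ctx p e l f g ψ) (ζ : LinearMap.ker (l : X →ₗ[ℝ] ℝ)) :
    UU p e l ζ - l (UU p e l ζ) • e = ζ := by
  rw [C.l_UU, UU, add_sub_cancel_right]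

theorem norm_UU (C : Ctx p e l f g ψ) {ζ : LinearMap.ker (l : X →ₗ[ℝ] ℝ)} (hζ : ‖ζ‖ < 1) :
    ‖UU p e l ζ‖ = 1 := by
  have h1 := C.H.pyth (UU p e l ζ)
  have hb := bb_pos (r := ‖ζ‖) C.hp0 (norm_nonneg _) hζ
  have hζ' : ‖(ζ : X)‖ = ‖ζ‖ := rfl
  rw [C.sub_UU, C.l_UU, abs_of_pos hb, bb_rpow C.hp0 (norm_nonneg _) hζ, hζ'] at h1
  apply rpow_inj C.hp0 (norm_nonneg _) zero_le_one
  rw [h1, Real.one_rpow]
  ring

/-- `ψ` on the top of the line. -/
theorem psi_fe (C : Ctx p e l f g ψ) : ψ (f e) = 1 := by rw [C.hψ e C.H.norm_e, C.H.l_e]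

/-- The projection on `ker l`. -/
noncomputable def piX (H : IsLpLine p e l) : X →ₗ[ℝ] LinearMap.ker (l : X →ₗ[ℝ] ℝ) :=
  LinearMap.codRestrict _ ((LinearMap.id : X →ₗ[ℝ] X) -
      (l : X →ₗ[ℝ] ℝ).smulRight e) (fun x => by
    rw [LinearMap.mem_ker]
    show l (x - l x • e) = 0
    rw [map_sub, map_smul, H.l_e, smul_eq_mul, mul_one, sub_self])

theorem piX_coe (H : IsLpLine p e l) (x : X) : (piX H x : X) = x - l x • e := rfl

/-- The map of the open unit balls. -/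
noncomputable def TT (C : Ctx p e l f g ψ) (ζ : LinearMap.ker (l : X →ₗ[ℝ] ℝ)) :
    LinearMap.ker (ψ : Y →ₗ[ℝ] ℝ) :=
  piX C.line (f (UU p e l ζ))

theorem TT_coe (C : Ctx p e l f g ψ) (ζ : LinearMap.ker (l : X →ₗ[ℝ] ℝ)) :
    (C.TT ζ : Y) = f (UU p e l ζ) - ψ (f (UU p e l ζ)) • f e := rfl

theorem TT_zero (C : Ctx p e l f g ψ) : C.TT 0 = 0 := by
  apply Subtype.ext
  have hU : UU p e l (0 : LinearMap.ker (l : X →ₗ[ℝ] ℝ)) = e := by
    have : bb p 0 = 1 := by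
      rw [bb, Real.zero_rpow C.hp0.ne', sub_zero, Real.one_rpow]
    simp [UU, this]
  rw [C.TT_coe, hU, C.psi_fe, one_smul, sub_self]
  rfl

theorem TT_iso (C : Ctx p e l f g ψ) (ζ ζ' : LinearMap.ker (l : X →ₗ[ℝ] ℝ)) (h : ‖ζ‖ < 1)
    (h' : ‖ζ'‖ < 1) : ‖C.TT ζ - C.TT ζ'‖ = ‖ζ - ζ'‖ := by
  have hU := C.norm_UU h
  have hU' := C.norm_UU h'
  set x := UU p e l ζ - UU p e l ζ' with hx
  set y := f (UU p e l ζ) - f (UU p e l ζ') with hy
  have hxy : ‖y‖ = ‖x‖ := C.hf.iso _ _ hU hU'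
  have hl : ψ y = l x := by
    rw [hy, hx, map_sub, map_sub, C.hψ _ hU, C.hψ _ hU']
  have h1 := C.line.pyth y
  have h2 := C.H.pyth x
  rw [hxy, h2, hl] at h1
  have h3 : ‖y - l x • f e‖ = ‖x - l x • e‖ := by
    apply rpow_inj C.hp0 (norm_nonneg _) (norm_nonneg _)
    linarith
  have e1 : ‖C.TT ζ - C.TT ζ'‖ = ‖y - l x • f e‖ := by
    show ‖((C.TT ζ - C.TT ζ' : LinearMap.ker (ψ : Y →ₗ[ℝ] ℝ)) : Y)‖ = _
    congr 1
    rw [Submodule.coe_sub, C.TT_coe, C.TT_coe, C.hψ _ hU, C.hψ _ hU', hy, hx, map_sub, sub_smul]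
    abel
  have e2 : ‖ζ - ζ'‖ = ‖x - l x • e‖ := by
    show ‖((ζ - ζ' : LinearMap.ker (l : X →ₗ[ℝ] ℝ)) : X)‖ = _
    congr 1
    have e3 := C.sub_UU ζ
    have e4 := C.sub_UU ζ'
    rw [Submodule.coe_sub, ← e3, ← e4, hx, map_sub, sub_smul]
    abel
  rw [e1, e2, h3]

theorem TT_onto (C : Ctx p e l f g ψ) (y : LinearMap.ker (ψ : Y →ₗ[ℝ] ℝ)) (hy : ‖y‖ < 1) :
    ∃ ζ : LinearMap.ker (l : X →ₗ[ℝ] ℝ), ‖ζ‖ < 1 ∧ C.TT ζ = y := by
  have hyn : ‖(y : Y)‖ = ‖y‖ := rfl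
  have hψy : ψ (y : Y) = 0 := LinearMap.mem_ker.1 y.2
  set β := bb p ‖y‖ with hβ
  have hb : 0 < β := bb_pos C.hp0 (norm_nonneg _) hy
  set v : Y := (y : Y) + β • f e with hv
  have hψv : ψ v = β := by
    rw [hv, map_add, map_smul, C.psi_fe, hψy, zero_add, smul_eq_mul, mul_one]
  have hv1 : ‖v‖ = 1 := by
    have h1 := C.line.pyth v
    rw [hψv, abs_of_pos hb, hv, add_sub_cancel_right, hyn, hβ,
      bb_rpow C.hp0 (norm_nonneg _) hy] at h1
    apply rpow_inj C.hp0 (norm_nonneg _) zero_le_one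
    rw [hv, h1, Real.one_rpow]
    ring
  set t := g v with ht
  have ht1 : ‖t‖ = 1 := C.hg.norm_eq v hv1
  have hft : f t = v := C.hfg v hv1
  have hlt : l t = β := by rw [← C.hψ t ht1, hft, hψv]
  have hn := C.pi_norm ht1
  rw [hft, hψv, hlt, hv, add_sub_cancel_right, hyn] at hn
  refine ⟨piX C.H t, ?_, ?_⟩
  · show ‖(piX C.H t : X)‖ < 1
    rw [piX_coe, hlt, ← hn]
    exact hy
  · have hnorm : ‖piX C.H t‖ = ‖y‖ := by
      show ‖(piX C.H t : X)‖ = _
      rw [piX_coe, hlt, ← hn]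
    have hU : UU p e l (piX C.H t) = t := by
      rw [UU, hnorm, ← hβ, piX_coe, hlt, sub_add_cancel]
    apply Subtype.ext
    rw [C.TT_coe, hU, hft, hψv, hv, add_sub_cancel_right]

/-- The linear isometry of the kernels. -/
theorem exists_L (C : Ctx p e l f g ψ) :
    ∃ L : LinearMap.ker (l : X →ₗ[ℝ] ℝ) ≃ₗᵢ[ℝ] LinearMap.ker (ψ : Y →ₗ[ℝ] ℝ),
      ∀ ζ, ‖ζ‖ < 1 → C.TT ζ = L ζ :=
  ball_linear C.TT_zero C.TT_iso C.TT_onto

/-- **The extension.** -/
theorem exists_extension (C : Ctx p e l f g ψ) :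
    ∃ T : X ≃ₗᵢ[ℝ] Y, ∀ x, ‖x‖ = 1 → T x = f x := by
  obtain ⟨L, hL⟩ := C.exists_L
  have HY := C.line
  have hψe := C.psi_fe
  let Tl : X →ₗ[ℝ] Y :=
    (LinearMap.ker (ψ : Y →ₗ[ℝ] ℝ)).subtype ∘ₗ (L.toLinearEquiv : _ →ₗ[ℝ] _) ∘ₗ piX C.H +
      (l : X →ₗ[ℝ] ℝ).smulRight (f e)
  have hTl : ∀ x, Tl x = (L (piX C.H x) : Y) + l x • f e := fun x => rfl
  have hψL : ∀ ζ, ψ (L ζ : Y) = 0 := fun ζ => LinearMap.mem_ker.1 (L ζ).2
  have hψT : ∀ x, ψ (Tl x) = l x := fun x => by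
    rw [hTl, map_add, hψL, map_smul, hψe, zero_add, smul_eq_mul, mul_one]
  have hnorm : ∀ x, ‖Tl x‖ = ‖x‖ := fun x => by
    apply rpow_inj C.hp0 (norm_nonneg _) (norm_nonneg _)
    rw [HY.pyth (Tl x), C.H.pyth x, hψT]
    have e1 : Tl x - l x • f e = (L (piX C.H x) : Y) := by
      rw [hTl, add_sub_cancel_right]
    have e2 : ‖(L (piX C.H x) : Y)‖ = ‖x - l x • e‖ := by
      show ‖L (piX C.H x)‖ = _
      rw [L.norm_map]
      rfl
    rw [e1, e2]
  have hsurj : Function.Surjective Tl := by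
    intro y
    refine ⟨(L.symm (piX HY y) : X) + ψ y • e, ?_⟩
    set w := L.symm (piX HY y) with hw
    have hlw : l (w : X) = 0 := l_ker w
    have h1 : l ((w : X) + ψ y • e) = ψ y := by
      rw [map_add, map_smul, C.H.l_e, hlw, zero_add, smul_eq_mul, mul_one]
    have h2 : piX C.H ((w : X) + ψ y • e) = w := by
      apply Subtype.ext
      rw [piX_coe, h1, add_sub_cancel_right]
    rw [hTl, h2, h1, hw, L.apply_symm_apply, piX_coe, sub_add_cancel]
  let Li : X →ₗᵢ[ℝ] Y := ⟨Tl, hnorm⟩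
  have hLi : ∀ x, Li x = Tl x := fun _ => rfl
  have hpos : ∀ t : X, ‖t‖ = 1 → 0 < l t → Tl t = f t := by
    intro t ht hb
    have h1 := C.H.pyth t
    rw [ht, Real.one_rpow, abs_of_pos hb] at h1
    have hbp : 0 < l t ^ p := Real.rpow_pos_of_pos hb _
    have hζ : ‖piX C.H t‖ < 1 := by
      show ‖(piX C.H t : X)‖ < 1
      rw [piX_coe]
      have h2 : ‖t - l t • e‖ ^ p < 1 := by linarith
      by_contra hcon
      have h3 : 1 ≤ ‖t - l t • e‖ := not_lt.1 hcon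
      have h4 := Real.one_le_rpow h3 C.hp0.le
      linarith
    have hbb : bb p ‖piX C.H t‖ = l t := by
      have e1 : ‖piX C.H t‖ = ‖t - l t • e‖ := rfl
      rw [bb, e1]
      have e2 : 1 - ‖t - l t • e‖ ^ p = l t ^ p := by linarith
      rw [e2, ← Real.rpow_mul hb.le, one_div, mul_inv_cancel₀ C.hp0.ne', Real.rpow_one]
    have hU : UU p e l (piX C.H t) = t := by
      rw [UU, hbb, piX_coe, sub_add_cancel]
    have h5 := hL _ hζ
    have h6 : (C.TT (piX C.H t) : Y) = f t - ψ (f t) • f e := by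
      rw [C.TT_coe, hU]
    rw [hTl, ← h5, h6, C.hψ t ht, sub_add_cancel]
  have hneg : ∀ t : X, ‖t‖ = 1 → l t < 0 → Tl t = f t := by
    intro t ht hb
    have ht' : ‖-t‖ = 1 := by rw [norm_neg]; exact ht
    have h1 := hpos (-t) ht' (by rw [map_neg]; linarith)
    rw [map_neg, C.hodd t ht] at h1
    exact neg_injective h1
  have hzero : ∀ t : X, ‖t‖ = 1 → l t = 0 → Tl t = f t := by
    intro t ht hb
    by_contra hne
    have hδ : 0 < ‖Tl t - f t‖ := norm_pos_iff.2 (sub_ne_zero.2 hne)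
    set δ := ‖Tl t - f t‖ with hδdef
    set s := δ / 8 with hs
    have hs0 : 0 < s := by positivity
    set w := t + s • e with hw
    have hlw : l w = s := by
      rw [hw, map_add, map_smul, hb, C.H.l_e, zero_add, smul_eq_mul, mul_one]
    have hw0 : w ≠ 0 := by
      intro h
      rw [h, map_zero] at hlw
      linarith
    have hwn : 0 < ‖w‖ := norm_pos_iff.2 hw0
    set u := ‖w‖⁻¹ • w with hu
    have hu1 : ‖u‖ = 1 := by
      rw [hu, norm_smul, norm_inv, norm_norm, inv_mul_cancel₀ hwn.ne']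
    have hlu : 0 < l u := by
      rw [hu, map_smul, hlw, smul_eq_mul]
      positivity
    have hwt : ‖w - t‖ = s := by
      rw [hw, add_sub_cancel_left, norm_smul, C.H.norm_e, mul_one, Real.norm_of_nonneg hs0.le]
    have huw : ‖u - w‖ ≤ s := by
      have e1 : u - w = (‖w‖⁻¹ - 1) • w := by rw [hu, sub_smul, one_smul]
      rw [e1, norm_smul, Real.norm_eq_abs]
      have e2 : |‖w‖⁻¹ - 1| * ‖w‖ = |1 - ‖w‖| := by
        have e3 : ‖w‖⁻¹ - 1 = (1 - ‖w‖) * ‖w‖⁻¹ := by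
          rw [sub_mul, one_mul, mul_inv_cancel₀ hwn.ne']
        rw [e3, abs_mul, abs_of_pos (inv_pos.2 hwn), mul_assoc, inv_mul_cancel₀ hwn.ne', mul_one]
      rw [e2]
      have h7 := abs_norm_sub_norm_le w t
      rw [ht, hwt] at h7
      rwa [abs_sub_comm]
    have hut : ‖u - t‖ ≤ 2 * s := by
      have := norm_add_le (u - w) (w - t)
      rw [sub_add_sub_cancel, hwt] at this
      linarith
    have h1 : ‖Tl t - Tl u‖ ≤ 2 * s := by
      rw [← map_sub, hnorm, norm_sub_rev]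
      exact hut
    have h2 : ‖f u - f t‖ ≤ 2 * s := by
      rw [C.hf.iso _ _ hu1 ht]
      exact hut
    have h3 : Tl u = f u := hpos u hu1 hlu
    have h4 : Tl t - f t = (Tl t - Tl u) + (f u - f t) := by
      rw [h3]; abel
    have h5 := norm_add_le (Tl t - Tl u) (f u - f t)
    rw [← h4, ← hδdef] at h5
    rw [hs] at h1 h2
    linarith
  refine ⟨LinearIsometryEquiv.ofSurjective Li hsurj, fun x hx => ?_⟩
  show Tl x = f x
  rcases lt_trichotomy (l x) 0 with h | h | h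
  · exact hneg x hx h
  · exact hzero x hx h
  · exact hpos x hx h

end Ctx

/-- **Tingley's problem for `Z ⊕_p ℝ`**, source version: `X` infinite dimensional. -/
theorem extends_of_isLpLine {p : ℝ} {e : X} {l : X →L[ℝ] ℝ} (H : IsLpLine p e l) (hp : 1 < p)
    (hX : ¬ FiniteDimensional ℝ X) {f : X → Y} (hf : IsSphereIso f) :
    ∃ T : X ≃ₗᵢ[ℝ] Y, ∀ x, ‖x‖ = 1 → T x = f x := by
  obtain ⟨g, hg, hgf, hfg⟩ := exists_isSphereIso_inv hf
  have hY := not_finiteDimensional_target hf hX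
  have hodd : ∀ x : X, ‖x‖ = 1 → f (-x) = - f x := fun x hx => Inf.odd_of_isSphereIso hf hx
  have hgodd : ∀ y : Y, ‖y‖ = 1 → g (-y) = - g y := fun y hy => Inf.odd_of_isSphereIso hg hy
  obtain ⟨ψ, hψb, hψ⟩ := exists_psi H hp (four_le_rank_of_infinite hY) hf hg hgf hfg hodd hgodd
  exact Ctx.exists_extension ⟨H, hp, hf, hg, hgf, hfg, hodd, hψb, hψ⟩

/-- Map of the unit spheres, source version. -/
theorem extends_sphere_source (f : sphere (0 : X) 1 → sphere (0 : Y) 1) (hf : Isometry f)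
    (hs : Function.Surjective f) {p : ℝ} {e : X} {l : X →L[ℝ] ℝ} (H : IsLpLine p e l) (hp : 1 < p)
    (hX : ¬ FiniteDimensional ℝ X) : ∃ T : X ≃ₗᵢ[ℝ] Y, ∀ x : sphere (0 : X) 1, T x = f x := by
  obtain ⟨g, hg, hgf⟩ := exists_ambient f hf hs
  obtain ⟨T, hT⟩ := extends_of_isLpLine H hp hX hg
  exact ⟨T, fun x => by rw [hT x (by simpa using x.2), hgf]⟩

/-- Map of the unit spheres, target version. -/
theorem extends_sphere_target (f : sphere (0 : X) 1 → sphere (0 : Y) 1) (hf : Isometry f)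
    (hs : Function.Surjective f) {p : ℝ} {e : Y} {l : Y →L[ℝ] ℝ} (H : IsLpLine p e l) (hp : 1 < p)
    (hY : ¬ FiniteDimensional ℝ Y) : ∃ T : X ≃ₗᵢ[ℝ] Y, ∀ x : sphere (0 : X) 1, T x = f x := by
  obtain ⟨h, hh, hhs, htr⟩ := exists_inverse f hf hs
  exact htr (extends_sphere_source h hh hhs H hp hY)

end Vale.Agent.Lib.P084.LpSum
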