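/-
Common functionals.  If a real function `H` on the unit sphere of `Y` (dimension at least four,
possibly infinite) is odd, bounded by `1`, `1`-Lipschitz and additive on unit triples, then it is the
restriction of a linear functional of norm at most one.  Proof: `y ↦ (y, H y)` is an odd isometric map
into the sup-norm product `F × ℝ` on every finite dimensional slice, additive on unit triples, so the
finite dimensional core theorem applies (no surjectivity needed).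
-/
import Vale.Agent.Lib.P084.RNP.Glue
import Vale.Agent.Lib.P084.RNP.KConst

namespace Vale.Agent.Lib.P084.LpSum

open Vale.Agent.Lib.P084.RNP

variable {Y : Type*} [NormedAddCommGroup Y] [NormedSpace ℝ Y]

theorem exists_functional_of_additive (hrank : (4 : Cardinal) ≤ Module.rank ℝ Y) {H : Y → ℝ}
    (hodd : ∀ y : Y, ‖y‖ = 1 → H (-y) = - H y)
    (hbd : ∀ y : Y, ‖y‖ = 1 → |H y| ≤ 1)
    (hlip : ∀ y y' : Y, ‖y‖ = 1 → ‖y'‖ = 1 → |H y - H y'| ≤ ‖y - y'‖)
    (hadd : ∀ y y' : Y, ‖y‖ = 1 → ‖y'‖ = 1 → ‖y + y'‖ = 1 → H (y + y') = H y + H y') :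
    ∃ ψ : Y →L[ℝ] ℝ, (∀ y, |ψ y| ≤ ‖y‖) ∧ ∀ y, ‖y‖ = 1 → ψ y = H y := by
  classical
  set R : Y → ℝ := fun a => ‖a‖ * H (‖a‖⁻¹ • a) with hR
  have hRsub : ∀ F : Submodule ℝ Y, FiniteDimensional ℝ F → 4 ≤ Module.finrank ℝ F →
      ∃ τ : F →ₗ[ℝ] ℝ, ∀ x : F, τ x = R x := by
    intro F hFd hF4
    let G : F → F × ℝ := fun x => (x, H (x : Y))
    have hG1 : ∀ x : F, ‖x‖ = 1 → ‖G x‖ = 1 := by
      intro x hx
      have hx' : ‖(x : Y)‖ = 1 := hx
      rw [Prod.norm_def]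
      show max ‖x‖ ‖H (x : Y)‖ = 1
      rw [hx, Real.norm_eq_abs]
      exact max_eq_left (hbd _ hx')
    have hG2 : ∀ x x' : F, ‖x‖ = 1 → ‖x'‖ = 1 → ‖G x - G x'‖ = ‖x - x'‖ := by
      intro x x' hx hx'
      have e : G x - G x' = (x - x', H (x : Y) - H (x' : Y)) := rfl
      rw [e, Prod.norm_def]
      show max ‖x - x'‖ ‖H (x : Y) - H (x' : Y)‖ = ‖x - x'‖
      rw [Real.norm_eq_abs]
      exact max_eq_left (hlip _ _ hx hx')
    have hG3 : ∀ x : F, ‖x‖ = 1 → G (-x) = - G x := by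
      intro x hx
      have hx' : ‖(x : Y)‖ = 1 := hx
      apply Prod.ext
      · rfl
      · exact hodd _ hx'
    have hG4 : ∀ x y : F, ‖x‖ = 1 → ‖y‖ = 1 → ‖x + y‖ = 1 → G (x + y) = G x + G y := by
      intro x y hx hy hxy
      apply Prod.ext
      · rfl
      · exact hadd _ _ hx hy hxy
    obtain ⟨T, hT⟩ := exists_linearIsometry_of_add hF4 hG1 hG2 hG3 hG4
    refine ⟨(LinearMap.snd ℝ F ℝ).comp T.toLinearMap, fun x => ?_⟩
    by_cases hx : x = 0
    · subst hx
      simp [hR]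
    · have hn : ‖x‖ ≠ 0 := norm_ne_zero_iff.2 hx
      have hu : ‖‖x‖⁻¹ • x‖ = 1 := by
        rw [norm_smul, norm_inv, norm_norm, inv_mul_cancel₀ hn]
      have h1 := hT _ hu
      have h2 : T x = ‖x‖ • T (‖x‖⁻¹ • x) := by
        rw [map_smul, smul_smul, mul_inv_cancel₀ hn, one_smul]
      show (T x).2 = R x
      rw [h2, h1]
      rfl
  have hRadd : ∀ x x', R (x + x') = R x + R x' := by
    intro x x'
    obtain ⟨F, hFd, hF4, hFS⟩ := exists_sub4 hrank {x, x'}
    have hxF : x ∈ F := hFS x (by simp)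
    have hx'F : x' ∈ F := hFS x' (by simp)
    obtain ⟨τ, hτ⟩ := hRsub F hFd hF4
    have h1 := hτ ⟨x, hxF⟩
    have h2 := hτ ⟨x', hx'F⟩
    have h3 := hτ (⟨x, hxF⟩ + ⟨x', hx'F⟩)
    rw [map_add, h1, h2] at h3
    exact h3.symm
  have hRbd : ∀ x, |R x| ≤ ‖x‖ := by
    intro x
    by_cases hx : x = 0
    · subst hx
      simp [hR]
    · have hn : ‖x‖ ≠ 0 := norm_ne_zero_iff.2 hx
      have hu : ‖‖x‖⁻¹ • x‖ = 1 := by
        rw [norm_smul, norm_inv, norm_norm, inv_mul_cancel₀ hn]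
      simp only [hR]
      rw [abs_mul, abs_of_nonneg (norm_nonneg x)]
      have := hbd _ hu
      nlinarith [norm_nonneg x]
  let Rh : Y →+ ℝ := AddMonoidHom.mk' R hRadd
  have hcont : Continuous Rh := by
    refine AddMonoidHomClass.continuous_of_bound Rh 1 fun x => ?_
    rw [one_mul, Real.norm_eq_abs]
    exact hRbd x
  refine ⟨Rh.toRealLinearMap hcont, fun y => hRbd y, fun y hy => ?_⟩
  show R y = H y
  simp only [hR, hy, inv_one, one_smul, one_mul]

end Vale.Agent.Lib.P084.LpSum
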