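import Vale.Agent.Lib.P084.LpSum.Common
import Vale.Agent.Lib.P084.LpSum.Ball
import Vale.Agent.Lib.P084.LSum.Top
import Vale.Agent.Lib.P084.RNP.FaceTree
import Vale.Agent.Lib.P084.RNP.Top

/-!
The Mazur-Ulam property for `l_p`-sums with a strictly convex summand: `P` a linear projection of a
real normed space `X` with `‖x‖^p = ‖x - P x‖^p + ‖P x‖^p`, `1 < p`, and strictly convex range.
-/

namespace Vale.Agent.Lib.P084.LpSum.Proj

open Vale.Agent.Lib.P084.LpSum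

open Vale.Agent.Lib.P084.UC Vale.Agent.Lib.P084.Inf Vale.Agent.Lib.P084.RNP
open Vale.Agent.Lib.P084.LSum (rad rad_zero rad_unit rad_neg rad_smul rad_smul_unit norm_rad
  norm_inv_smul')

variable {X Y : Type*} [NormedAddCommGroup X] [NormedSpace ℝ X] [NormedAddCommGroup Y]
  [NormedSpace ℝ Y]

/-- A two point rigidity lemma for `l_p^2`. -/
theorem rigid {p a0 b0 a1 b1 a2 b2 : ℝ} (hp : 1 < p) (ha0 : 0 ≤ a0) (hb0 : 0 ≤ b0) (ha1 : 0 ≤ a1)
    (hb1 : 0 ≤ b1) (ha2 : 0 ≤ a2) (hb2 : 0 ≤ b2) (ha : a0 ≤ (a1 + a2) / 2) (hb : b0 ≤ (b1 + b2) / 2)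
    (h1 : a1 ^ p + b1 ^ p = a0 ^ p + b0 ^ p) (h2 : a2 ^ p + b2 ^ p = a0 ^ p + b0 ^ p) :
    b1 = b0 ∧ b2 = b0 := by
  have hp0 : 0 < p := by linarith
  have hconv := strictConvexOn_rpow hp
  have conv : ∀ u v : ℝ, 0 ≤ u → 0 ≤ v → ((u + v) / 2) ^ p ≤ (u ^ p + v ^ p) / 2 := by
    intro u v hu hv
    have h := hconv.convexOn.2 (Set.mem_Ici.2 hu) (Set.mem_Ici.2 hv)
      (by norm_num : (0 : ℝ) ≤ 1 / 2) (by norm_num : (0 : ℝ) ≤ 1 / 2) (by norm_num)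
    simp only [smul_eq_mul] at h
    have e : (1 / 2 : ℝ) * u + (1 / 2 : ℝ) * v = (u + v) / 2 := by ring
    rw [e] at h
    linarith
  have mono : ∀ u v : ℝ, 0 ≤ u → u ≤ v → u ^ p ≤ v ^ p := fun u v hu huv =>
    Real.rpow_le_rpow hu huv hp0.le
  have ca := conv a1 a2 ha1 ha2
  have cb := conv b1 b2 hb1 hb2
  have ma := mono a0 _ ha0 ha
  have mb := mono b0 _ hb0 hb
  have hb12 : b1 = b2 := by
    by_contra hne
    have h := hconv.2 (Set.mem_Ici.2 hb1) (Set.mem_Ici.2 hb2) hne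
      (by norm_num : (0 : ℝ) < 1 / 2) (by norm_num : (0 : ℝ) < 1 / 2) (by norm_num)
    simp only [smul_eq_mul] at h
    have e : (1 / 2 : ℝ) * b1 + (1 / 2 : ℝ) * b2 = (b1 + b2) / 2 := by ring
    rw [e] at h
    linarith
  subst hb12
  have e : (b1 + b1) / 2 = b1 := by ring
  rw [e] at hb mb
  have h3 : b1 ^ p = b0 ^ p := by linarith
  have h4 : b1 = b0 := (Real.rpow_left_inj hb1 hb0 hp0.ne').1 h3
  exact ⟨h4, h4⟩

/-- An `l_p`-projection with strictly convex range. -/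
structure IsPSum (P : X →ₗ[ℝ] X) (p : ℝ) : Prop where
  one_lt : 1 < p
  idem : ∀ x, P (P x) = P x
  norm_rpow : ∀ x, ‖x‖ ^ p = ‖x - P x‖ ^ p + ‖P x‖ ^ p
  noflat : ∀ w e, P w = w → P e = e → ‖w + e‖ = ‖w‖ → ‖w - e‖ = ‖w‖ → e = 0

section Basic

variable {P : X →ₗ[ℝ] X} {p : ℝ}

theorem IsPSum.pos (h : IsPSum P p) : 0 < p := by linarith [h.one_lt]

theorem IsPSum.norm_P_le (h : IsPSum P p) (x : X) : ‖P x‖ ≤ ‖x‖ := by
  have h0 := h.norm_rpow x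
  have h1 : 0 ≤ ‖x - P x‖ ^ p := Real.rpow_nonneg (norm_nonneg _) _
  have h2 : ‖P x‖ ^ p ≤ ‖x‖ ^ p := by linarith
  exact (Real.rpow_le_rpow_iff (norm_nonneg _) (norm_nonneg _) h.pos).1 h2

theorem IsPSum.sub_idem (h : IsPSum P p) (x : X) : P (x - P x) = 0 := by
  rw [map_sub, h.idem, sub_self]

theorem IsPSum.eq_P_of_norm (h : IsPSum P p) {x : X} (hx : ‖x‖ = 1) (hPx : ‖P x‖ = 1) : x = P x := by
  have h0 := h.norm_rpow x
  rw [hx, hPx, Real.one_rpow] at h0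
  have h1 : ‖x - P x‖ ^ p = 0 := by linarith
  have h2 : ‖x - P x‖ = 0 := by
    rw [Real.rpow_eq_zero (norm_nonneg _) h.pos.ne'] at h1
    exact h1
  exact sub_eq_zero.mp (norm_eq_zero.mp h2)

end Basic

section Sphere

variable {P : X →ₗ[ℝ] X} {p : ℝ} {f : X → Y}

/-- The flatness of unit triples. -/
theorem flat_of_triple (hf : IsSphereIso f) (hodd : ∀ x : X, ‖x‖ = 1 → f (-x) = - f x) {x₁ x₂ x₃ : X}
    (h₁ : ‖x₁‖ = 1) (h₂ : ‖x₂‖ = 1) (h₃ : ‖x₃‖ = 1) (h0 : f x₁ + f x₂ + f x₃ = 0) :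
    ‖(x₁ - x₂) + (x₁ + x₂ + x₃)‖ = ‖x₁ - x₂‖ ∧ ‖(x₁ - x₂) - (x₁ + x₂ + x₃)‖ = ‖x₁ - x₂‖ := by
  have hf3 : f x₃ = - f x₁ - f x₂ := by
    have : f x₃ = -(f x₁ + f x₂) := eq_neg_of_add_eq_zero_right h0
    rw [this]; abel
  have hf3' : f x₃ = - f x₂ - f x₁ := by rw [hf3]; abel
  have h13 : ‖x₁ + x₃‖ = 1 := by
    rw [← norm_f_add' hf hodd h₁ h₃, hf3]
    have : f x₁ + (- f x₁ - f x₂) = - f x₂ := by abel
    rw [this, norm_neg]; exact hf.norm_eq _ h₂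
  have h23 : ‖x₂ + x₃‖ = 1 := by
    rw [← norm_f_add' hf hodd h₂ h₃, hf3']
    have : f x₂ + (- f x₂ - f x₁) = - f x₁ := by abel
    rw [this, norm_neg]; exact hf.norm_eq _ h₁
  have e1 := two_add_eq hf hodd h₁ h₃ h13 h₂ hf3
  have e2 := two_add_eq hf hodd h₂ h₃ h23 h₁ hf3'
  constructor
  · rw [← e1]
    congr 1
    rw [two_smul]; abel
  · rw [norm_sub_rev x₁ x₂, ← e2, ← norm_neg]
    congr 1
    rw [two_smul]; abel

/-- The projection kills the defects of unit triples. -/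
theorem proj_defect (hP : IsPSum P p) (hf : IsSphereIso f) (hodd : ∀ x : X, ‖x‖ = 1 → f (-x) = - f x)
    {x₁ x₂ x₃ : X} (h₁ : ‖x₁‖ = 1) (h₂ : ‖x₂‖ = 1) (h₃ : ‖x₃‖ = 1)
    (h0 : f x₁ + f x₂ + f x₃ = 0) : P (x₁ + x₂ + x₃) = 0 := by
  obtain ⟨hp, hm⟩ := flat_of_triple hf hodd h₁ h₂ h₃ h0
  set v := x₁ - x₂
  set ε := x₁ + x₂ + x₃
  have r0 := hP.norm_rpow v
  have r1 := hP.norm_rpow (v + ε)
  have r2 := hP.norm_rpow (v - ε)
  rw [hp, r0] at r1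
  rw [hm, r0] at r2
  have ha : ‖v - P v‖ ≤ (‖v + ε - P (v + ε)‖ + ‖v - ε - P (v - ε)‖) / 2 := by
    have e : v - P v = (1 / 2 : ℝ) • (v + ε - P (v + ε)) + (1 / 2 : ℝ) • (v - ε - P (v - ε)) := by
      have h1 : P (v + ε) = P v + P ε := map_add _ _ _
      have h2 : P (v - ε) = P v - P ε := map_sub _ _ _
      rw [h1, h2]; module
    rw [e]
    refine (norm_add_le _ _).trans ?_
    rw [norm_smul, norm_smul]
    norm_num
    linarith
  have hb : ‖P v‖ ≤ (‖P (v + ε)‖ + ‖P (v - ε)‖) / 2 := by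
    have e : P v = (1 / 2 : ℝ) • P (v + ε) + (1 / 2 : ℝ) • P (v - ε) := by
      have h1 : P (v + ε) = P v + P ε := map_add _ _ _
      have h2 : P (v - ε) = P v - P ε := map_sub _ _ _
      rw [h1, h2]; module
    rw [e]
    refine (norm_add_le _ _).trans ?_
    rw [norm_smul, norm_smul]
    norm_num
    linarith
  obtain ⟨b1, b2⟩ := rigid hP.one_lt (norm_nonneg _) (norm_nonneg _) (norm_nonneg _) (norm_nonneg _)
    (norm_nonneg _) (norm_nonneg _) ha hb r1.symm r2.symm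
  rw [map_add] at b1
  rw [map_sub] at b2
  exact hP.noflat (P v) (P ε) (hP.idem v) (hP.idem ε) b1 b2

/-- The height map is linear on the target. -/
theorem exists_Q (hP : IsPSum P p) (hrank : (4 : Cardinal) ≤ Module.rank ℝ Y) (hf : IsSphereIso f)
    (hodd : ∀ x : X, ‖x‖ = 1 → f (-x) = - f x) :
    ∃ Q : Y →ₗ[ℝ] X, (∀ x, ‖x‖ = 1 → Q (f x) = P x) ∧ ∀ y, ‖Q y‖ ≤ ‖y‖ := by
  obtain ⟨g, hg, hgf, hfg⟩ := exists_isSphereIso_inv hf
  have hgodd : ∀ y : Y, ‖y‖ = 1 → g (-y) = - g y := fun y hy => odd_of_isSphereIso hg hy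
  have hPg : ∀ y y' : Y, ‖y‖ = 1 → ‖y'‖ = 1 → ‖y + y'‖ = 1 → P (g (y + y')) = P (g y) + P (g y') := by
    intro y y' hy hy' hyy'
    have h := proj_defect hP hf hodd (hg.norm_eq y hy) (hg.norm_eq y' hy')
      (x₃ := - g (y + y')) (by rw [norm_neg]; exact hg.norm_eq _ hyy') (by
        rw [hfg y hy, hfg y' hy', hodd _ (hg.norm_eq _ hyy'), hfg _ hyy']; abel)
    rw [map_add, map_add, map_neg] at h
    have h2 : P (g y) + P (g y') = P (g (y + y')) := by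
      have := eq_neg_of_add_eq_zero_left h
      rw [neg_neg] at this
      exact this
    exact h2.symm
  set R : Y → X := fun y => ‖y‖ • P (g (‖y‖⁻¹ • y)) with hR
  have hRunit : ∀ y, ‖y‖ = 1 → R y = P (g y) := by
    intro y hy
    simp [hR, hy]
  have hψ : ∀ ℓ : X →L[ℝ] ℝ, ‖ℓ‖ ≤ 1 → ∃ ψ : Y →L[ℝ] ℝ, ∀ y, ψ y = ℓ (R y) := by
    intro ℓ hℓ
    have hle : ∀ u : X, |ℓ u| ≤ ‖u‖ := by
      intro u
      have h1 := ℓ.le_opNorm u
      rw [Real.norm_eq_abs] at h1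
      exact h1.trans (by nlinarith [norm_nonneg u])
    obtain ⟨ψ, -, hψ1⟩ := exists_functional_of_additive hrank (H := fun y => ℓ (P (g y)))
      (fun y hy => by
        show ℓ (P (g (-y))) = - ℓ (P (g y))
        rw [hgodd y hy, map_neg, map_neg])
      (fun y hy => by
        have h1 := hle (P (g y))
        have h2 := hP.norm_P_le (g y)
        rw [hg.norm_eq y hy] at h2
        exact h1.trans h2)
      (fun y y' hy hy' => by
        show |ℓ (P (g y)) - ℓ (P (g y'))| ≤ _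
        rw [← map_sub, ← map_sub]
        refine (hle _).trans ((hP.norm_P_le _).trans ?_)
        rw [hg.iso y y' hy hy'])
      (fun y y' hy hy' hyy' => by
        show ℓ (P (g (y + y'))) = ℓ (P (g y)) + ℓ (P (g y'))
        rw [hPg y y' hy hy' hyy', map_add])
    refine ⟨ψ, fun y => ?_⟩
    by_cases hy : y = 0
    · simp [hy, hR]
    · have hn : ‖y‖ ≠ 0 := norm_ne_zero_iff.2 hy
      have hu : ‖‖y‖⁻¹ • y‖ = 1 := norm_inv_smul' hy
      have h1 := hψ1 _ hu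
      have e : y = ‖y‖ • (‖y‖⁻¹ • y) := by rw [smul_smul, mul_inv_cancel₀ hn, one_smul]
      calc ψ y = ψ (‖y‖ • (‖y‖⁻¹ • y)) := by rw [← e]
        _ = ‖y‖ * ψ (‖y‖⁻¹ • y) := by rw [map_smul, smul_eq_mul]
        _ = ‖y‖ * ℓ (P (g (‖y‖⁻¹ • y))) := by rw [h1]
        _ = ℓ (R y) := by simp only [hR, map_smul, smul_eq_mul]
  have hsep : ∀ u : X, (∀ ℓ : X →L[ℝ] ℝ, ‖ℓ‖ ≤ 1 → ℓ u = 0) → u = 0 := by
    intro u hu
    obtain ⟨ℓ, hℓ1, hℓ2⟩ := exists_dual_vector'' ℝ u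
    have := hu ℓ hℓ1
    rw [hℓ2] at this
    simpa using this
  have hadd : ∀ a b, R (a + b) = R a + R b := by
    intro a b
    have : R (a + b) - (R a + R b) = 0 := by
      apply hsep
      intro ℓ hℓ
      obtain ⟨ψ, hψ⟩ := hψ ℓ hℓ
      rw [map_sub, map_add, ← hψ, ← hψ, ← hψ, map_add]
      ring
    exact sub_eq_zero.mp this
  have hsmul : ∀ (c : ℝ) a, R (c • a) = c • R a := by
    intro c a
    have : R (c • a) - c • R a = 0 := by
      apply hsep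
      intro ℓ hℓ
      obtain ⟨ψ, hψ⟩ := hψ ℓ hℓ
      have e1 : ℓ (R (c • a)) = ψ (c • a) := (hψ _).symm
      have e2 : ℓ (c • R a) = c • ψ a := by rw [map_smul, hψ]
      rw [map_sub, e1, e2, map_smul, sub_self]
    exact sub_eq_zero.mp this
  refine ⟨{ toFun := R, map_add' := hadd, map_smul' := hsmul }, fun x hx => ?_, fun y => ?_⟩
  · show R (f x) = P x
    rw [hRunit _ (hf.norm_eq x hx), hgf x hx]
  · show ‖R y‖ ≤ ‖y‖
    by_cases hy : y = 0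
    · simp [hy, hR]
    · have hu : ‖‖y‖⁻¹ • y‖ = 1 := norm_inv_smul' hy
      have h2 := hP.norm_P_le (g (‖y‖⁻¹ • y))
      rw [hg.norm_eq _ hu] at h2
      simp only [hR]
      rw [norm_smul, norm_norm]
      nlinarith [norm_nonneg y]

end Sphere

end Vale.Agent.Lib.P084.LpSum.Proj
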