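import Vale.Agent.Lib.P084.LpSum.Proj1

/-!
The structure of the target of a sphere isometry when the source is an `l_p`-sum with a strictly
convex summand: the target is the same `l_p`-sum.
-/

namespace Vale.Agent.Lib.P084.LpSum.Proj

open Vale.Agent.Lib.P084.LpSum

open Vale.Agent.Lib.P084.UC Vale.Agent.Lib.P084.Inf Vale.Agent.Lib.P084.RNP
open Vale.Agent.Lib.P084.LSum (rad rad_zero rad_unit rad_neg rad_smul rad_smul_unit norm_rad
  norm_inv_smul')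

variable {X Y : Type*} [NormedAddCommGroup X] [NormedSpace ℝ X] [NormedAddCommGroup Y]
  [NormedSpace ℝ Y]

/-- The common data. -/
structure Data (P : X →ₗ[ℝ] X) (p : ℝ) (f : X → Y) (Q : Y →ₗ[ℝ] X) : Prop where
  sum : IsPSum P p
  iso : IsSphereIso f
  odd : ∀ x : X, ‖x‖ = 1 → f (-x) = - f x
  Qf : ∀ x, ‖x‖ = 1 → Q (f x) = P x

variable {P : X →ₗ[ℝ] X} {p : ℝ} {f : X → Y} {Q : Y →ₗ[ℝ] X}

theorem IsPSum.add_sum (h : IsPSum P p) {z w : X} (hz : P z = 0) (hw : P w = w) :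
    ‖z + w‖ ^ p = ‖z‖ ^ p + ‖w‖ ^ p := by
  have h0 := h.norm_rpow (z + w)
  have e1 : P (z + w) = w := by rw [map_add, hz, hw, zero_add]
  rw [e1, add_sub_cancel_right] at h0
  exact h0

theorem eq_one_of_rpow {p a : ℝ} (hp : 0 < p) (ha : 0 ≤ a) (h : a ^ p = 1) : a = 1 := by
  have : a ^ p = (1 : ℝ) ^ p := by rw [h, Real.one_rpow]
  exact (Real.rpow_left_inj ha zero_le_one hp.ne').1 this

theorem IsPSum.norm_eq_one (h : IsPSum P p) {x : X} (hx : ‖x‖ ^ p = 1) : ‖x‖ = 1 := by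
  have : ‖x‖ ^ p = (1 : ℝ) ^ p := by rw [hx, Real.one_rpow]
  exact (Real.rpow_left_inj (norm_nonneg _) zero_le_one h.pos.ne').1 this

namespace Data

theorem eq_rad (D : Data P p f Q) {K : Y} {w : X} (hw : P w = w) (hK : ‖K‖ = ‖w‖) (hQK : Q K = w) :
    K = rad f w := by
  by_cases h0 : w = 0
  · subst h0
    rw [norm_zero] at hK
    rw [rad_zero]
    exact norm_eq_zero.mp hK
  have hn : ‖w‖ ≠ 0 := norm_ne_zero_iff.2 h0
  have hu : ‖‖w‖⁻¹ • K‖ = 1 := by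
    rw [norm_smul, norm_inv, norm_norm, hK, inv_mul_cancel₀ hn]
  obtain ⟨x, hx, hfx⟩ := D.iso.surj _ hu
  have hPx : P x = ‖w‖⁻¹ • w := by
    rw [← D.Qf x hx, hfx, map_smul, hQK]
  have hPn : ‖P x‖ = 1 := by rw [hPx]; exact norm_inv_smul' h0
  have hxe : x = ‖w‖⁻¹ • w := by
    rw [D.sum.eq_P_of_norm hx hPn, hPx]
  simp only [rad]
  rw [← hxe, hfx, smul_smul, mul_inv_cancel₀ hn, one_smul]

theorem Q_rad (D : Data P p f Q) {w : X} (hw : P w = w) : Q (rad f w) = w := by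
  by_cases h0 : w = 0
  · subst h0; simp
  have hn : ‖w‖ ≠ 0 := norm_ne_zero_iff.2 h0
  simp only [rad]
  rw [map_smul, D.Qf _ (norm_inv_smul' h0), map_smul, hw, smul_smul, mul_inv_cancel₀ hn, one_smul]

theorem rad_sub_of_norm_eq (D : Data P p f Q) {a b : X} (ha : P a = a) (hb : P b = b)
    (hab : ‖a‖ = ‖b‖) : rad f a - rad f b = rad f (a - b) := by
  apply D.eq_rad (by rw [map_sub, ha, hb])
  · by_cases h0 : a = 0
    · subst h0
      have hb0 : b = 0 := by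
        rw [norm_zero] at hab
        exact norm_eq_zero.mp hab.symm
      subst hb0
      simp
    have hb0 : b ≠ 0 := by
      intro h
      subst h
      rw [norm_zero] at hab
      exact h0 (norm_eq_zero.mp hab)
    have hn : ‖a‖ ≠ 0 := norm_ne_zero_iff.2 h0
    have ha' := norm_inv_smul' h0
    have hb' := norm_inv_smul' hb0
    have e : a - b = ‖a‖ • (‖a‖⁻¹ • a - ‖b‖⁻¹ • b) := by
      rw [smul_sub, smul_smul, mul_inv_cancel₀ hn, hab, smul_smul, mul_inv_cancel₀ (hab ▸ hn),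
        one_smul, one_smul]
    simp only [rad]
    rw [← hab, ← smul_sub, norm_smul, D.iso.iso _ _ ha' (by rw [hab]; exact hb'), e, norm_smul,
      hab]
  · rw [map_sub, D.Q_rad ha, D.Q_rad hb]

theorem norm_sub_rad (D : Data P p f Q) {t : X} (ht : ‖t‖ = 1) :
    ‖f t - rad f (P t)‖ = ‖t - P t‖ := by
  have hS := D.sum
  set t2 : X := (2 : ℝ) • P t - t with ht2
  have hPt2 : P t2 = P t := by
    rw [ht2, map_sub, map_smul, hS.idem, two_smul]; abel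
  have hz2 : t2 - P t2 = -(t - P t) := by
    rw [hPt2, ht2, two_smul]; abel
  have ht2n : ‖t2‖ = 1 := by
    apply hS.norm_eq_one
    rw [hS.norm_rpow t2, hz2, norm_neg, hPt2, ← hS.norm_rpow t, ht, Real.one_rpow]
  have hsum : t + t2 = (2 : ℝ) • P t := by rw [ht2]; abel
  have hK := D.eq_rad (K := f t + f t2) (w := (2 : ℝ) • P t)
    (by rw [map_smul, hS.idem])
    (by rw [norm_f_add' D.iso D.odd ht ht2n, hsum])
    (by rw [map_add, D.Qf t ht, D.Qf t2 ht2n, hPt2, two_smul])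
  rw [rad_smul D.iso] at hK
  have e : (2 : ℝ) • (f t - rad f (P t)) = f t - f t2 := by
    rw [smul_sub, ← hK, two_smul]; abel
  have h1 : ‖(2 : ℝ) • (f t - rad f (P t))‖ = ‖(2 : ℝ) • (t - P t)‖ := by
    rw [e, D.iso.iso t t2 ht ht2n]
    congr 1
    rw [ht2, smul_sub, two_smul, two_smul]; abel
  rw [norm_smul, norm_smul] at h1
  have h2 : ‖(2 : ℝ)‖ ≠ 0 := by norm_num
  exact mul_left_cancel₀ h2 h1

/-- The target is the same `l_p`-sum. -/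
theorem ysum (D : Data P p f Q) (y : Y) : ‖y‖ ^ p = ‖y - rad f (Q y)‖ ^ p + ‖Q y‖ ^ p := by
  have hS := D.sum
  by_cases h0 : y = 0
  · subst h0
    simp [Real.zero_rpow hS.pos.ne']
  have hn : ‖y‖ ≠ 0 := norm_ne_zero_iff.2 h0
  have hpos : 0 < ‖y‖ := norm_pos_iff.2 h0
  have hu : ‖‖y‖⁻¹ • y‖ = 1 := norm_inv_smul' h0
  obtain ⟨x, hx, hfx⟩ := D.iso.surj _ hu
  have hy : y = ‖y‖ • f x := by rw [hfx, smul_smul, mul_inv_cancel₀ hn, one_smul]
  have hQy : Q y = ‖y‖ • P x := by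
    conv_lhs => rw [hy]
    rw [map_smul, D.Qf x hx]
  have hrad : rad f (Q y) = ‖y‖ • rad f (P x) := by rw [hQy, rad_smul D.iso]
  have e1 : y - rad f (Q y) = ‖y‖ • (f x - rad f (P x)) := by
    rw [hrad, smul_sub, ← hy]
  have hnorm : ‖y - rad f (Q y)‖ = ‖y‖ * ‖x - P x‖ := by
    rw [e1, norm_smul, norm_norm, D.norm_sub_rad hx]
  have hnorm2 : ‖Q y‖ = ‖y‖ * ‖P x‖ := by
    rw [hQy, norm_smul, norm_norm]
  rw [hnorm, hnorm2, Real.mul_rpow hpos.le (norm_nonneg _), Real.mul_rpow hpos.le (norm_nonneg _),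
    ← mul_add, ← hS.norm_rpow x, hx, Real.one_rpow, mul_one]

end Data

/-! ### The height function -/

/-- The height over a point of norm `r` in the other summand. -/
noncomputable def bb (p r : ℝ) : ℝ := (1 - r ^ p) ^ (1 / p)

theorem bb_nonneg (p r : ℝ) (hr : r ^ p ≤ 1) : 0 ≤ bb p r :=
  Real.rpow_nonneg (by linarith) _

theorem bb_pos {p r : ℝ} (hr : r ^ p < 1) : 0 < bb p r :=
  Real.rpow_pos_of_pos (by linarith) _

theorem bb_rpow {p r : ℝ} (hp : 0 < p) (hr : r ^ p ≤ 1) : bb p r ^ p = 1 - r ^ p := by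
  simp only [bb]
  rw [← Real.rpow_mul (by linarith), one_div, inv_mul_cancel₀ hp.ne', Real.rpow_one]

theorem bb_of_rpow {p r s : ℝ} (hp : 0 < p) (hs : 0 ≤ s) (h : r ^ p + s ^ p = 1) : bb p r = s := by
  simp only [bb]
  have e : 1 - r ^ p = s ^ p := by linarith
  rw [e, ← Real.rpow_mul hs, mul_one_div, div_self hp.ne', Real.rpow_one]

theorem bb_zero {p : ℝ} (hp : 0 < p) : bb p 0 = 1 := by
  simp [bb, Real.zero_rpow hp.ne']

theorem rpow_lt_one_of_norm {p r : ℝ} (hp : 0 < p) (h0 : 0 ≤ r) (h1 : r < 1) : r ^ p < 1 :=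
  Real.rpow_lt_one h0 h1 hp

namespace Data

/-- The map of the open ball of the kernel of `P` given by a base point `w₀`, as a map to `Y`. -/
noncomputable def T₀ (p : ℝ) (f : X → Y) (w₀ : X) (z : X) : Y :=
  f (z + bb p ‖z‖ • w₀) - bb p ‖z‖ • f w₀

variable (D : Data P p f Q) {w₀ : X}

include D

theorem unit_pt (hw₀ : ‖w₀‖ = 1) (hPw₀ : P w₀ = w₀) {z : X} (hz : P z = 0) (hz1 : ‖z‖ < 1) :
    ‖z + bb p ‖z‖ • w₀‖ = 1 := by
  have hp := D.sum.pos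
  have h1 : ‖z‖ ^ p < 1 := rpow_lt_one_of_norm hp (norm_nonneg _) hz1
  apply D.sum.norm_eq_one
  rw [D.sum.add_sum hz (by rw [map_smul, hPw₀]), norm_smul, hw₀, mul_one,
    Real.norm_of_nonneg (bb_pos h1).le, bb_rpow hp h1.le]
  ring

theorem Q_T₀ (hw₀ : ‖w₀‖ = 1) (hPw₀ : P w₀ = w₀) {z : X} (hz : P z = 0) (hz1 : ‖z‖ < 1) :
    Q (T₀ p f w₀ z) = 0 := by
  simp only [T₀]
  rw [map_sub, map_smul, D.Qf _ (D.unit_pt hw₀ hPw₀ hz hz1), D.Qf _ hw₀, map_add, map_smul, hz,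
    hPw₀, zero_add, sub_self]

theorem T₀_iso (hw₀ : ‖w₀‖ = 1) (hPw₀ : P w₀ = w₀) {z z' : X} (hz : P z = 0) (hz' : P z' = 0)
    (h1 : ‖z‖ < 1) (h1' : ‖z'‖ < 1) : ‖T₀ p f w₀ z - T₀ p f w₀ z'‖ = ‖z - z'‖ := by
  have hp := D.sum.pos
  have hu := D.unit_pt hw₀ hPw₀ hz h1
  have hu' := D.unit_pt hw₀ hPw₀ hz' h1'
  set b := bb p ‖z‖ with hb
  set b' := bb p ‖z'‖ with hb'
  set y := f (z + b • w₀) - f (z' + b' • w₀) with hy
  have hQy : Q y = (b - b') • w₀ := by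
    rw [hy, map_sub, D.Qf _ hu, D.Qf _ hu', map_add, map_add, map_smul, map_smul, hz, hz', hPw₀,
      zero_add, zero_add, sub_smul]
  have hrad : rad f (Q y) = (b - b') • f w₀ := by rw [hQy, rad_smul_unit D.iso _ hw₀]
  have e : y - rad f (Q y) = T₀ p f w₀ z - T₀ p f w₀ z' := by
    rw [hrad, hy]
    simp only [T₀, ← hb, ← hb', sub_smul]
    abel
  have h2 := D.ysum y
  rw [e, hQy] at h2
  have h3 : ‖y‖ = ‖(z - z') + (b - b') • w₀‖ := by
    rw [hy, D.iso.iso _ _ hu hu']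
    congr 1
    rw [sub_smul]; abel
  have h4 := D.sum.add_sum (z := z - z') (w := (b - b') • w₀) (by rw [map_sub, hz, hz', sub_self])
    (by rw [map_smul, hPw₀])
  rw [← h3, h2] at h4
  have h5 : ‖T₀ p f w₀ z - T₀ p f w₀ z'‖ ^ p = ‖z - z'‖ ^ p := by linarith
  exact (Real.rpow_left_inj (norm_nonneg _) (norm_nonneg _) hp.ne').1 h5

theorem T₀_onto (hw₀ : ‖w₀‖ = 1) (hPw₀ : P w₀ = w₀) {y : Y} (hy : Q y = 0) (h1 : ‖y‖ < 1) :
    ∃ z : X, P z = 0 ∧ ‖z‖ = ‖y‖ ∧ T₀ p f w₀ z = y := by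
  have hp := D.sum.pos
  have hlt : ‖y‖ ^ p < 1 := rpow_lt_one_of_norm hp (norm_nonneg _) h1
  set b := bb p ‖y‖ with hb
  have hb0 : 0 < b := bb_pos hlt
  set v := y + b • f w₀ with hv
  have hQv : Q v = b • w₀ := by
    rw [hv, map_add, hy, zero_add, map_smul, D.Qf _ hw₀, hPw₀]
  have hrad : rad f (Q v) = b • f w₀ := by rw [hQv, rad_smul_unit D.iso _ hw₀]
  have hvn : ‖v‖ = 1 := by
    refine eq_one_of_rpow hp (norm_nonneg _) ?_
    rw [D.ysum v, hrad, hQv, hv, add_sub_cancel_right, norm_smul, hw₀, mul_one,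
      Real.norm_of_nonneg hb0.le, hb, bb_rpow hp hlt.le]
    ring
  obtain ⟨x, hx, hfx⟩ := D.iso.surj _ hvn
  have hPx : P x = b • w₀ := by rw [← D.Qf x hx, hfx, hQv]
  have hzn : ‖x - P x‖ = ‖y‖ := by
    rw [← D.norm_sub_rad hx, hfx, hPx, rad_smul_unit D.iso _ hw₀, hv, add_sub_cancel_right]
  refine ⟨x - P x, D.sum.sub_idem x, hzn, ?_⟩
  simp only [T₀]
  rw [hzn, ← hb, ← hPx, sub_add_cancel, hfx, hv, add_sub_cancel_right]

/-- For each base point there is a surjective linear isometry of the kernels. -/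
theorem exists_U (hw₀ : ‖w₀‖ = 1) (hPw₀ : P w₀ = w₀) :
    ∃ U : LinearMap.ker P ≃ₗᵢ[ℝ] LinearMap.ker Q, ∀ z : LinearMap.ker P, ‖(z : X)‖ < 1 →
      f ((z : X) + bb p ‖(z : X)‖ • w₀) = (U z : Y) + bb p ‖(z : X)‖ • f w₀ := by
  classical
  let T : LinearMap.ker P → LinearMap.ker Q := fun z =>
    if h : ‖(z : X)‖ < 1 then ⟨T₀ p f w₀ z, D.Q_T₀ hw₀ hPw₀ z.2 h⟩ else 0
  have hT : ∀ z : LinearMap.ker P, ‖(z : X)‖ < 1 → (T z : Y) = T₀ p f w₀ z := by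
    intro z hz
    simp only [T, dif_pos hz]
  have hp := D.sum.pos
  have hT0 : T 0 = 0 := by
    apply Subtype.ext
    rw [hT 0 (by simp)]
    simp [T₀, bb_zero hp]
  have iso : ∀ x y : LinearMap.ker P, ‖x‖ < 1 → ‖y‖ < 1 → ‖T x - T y‖ = ‖x - y‖ := by
    intro x y hx hy
    have hx' : ‖(x : X)‖ < 1 := hx
    have hy' : ‖(y : X)‖ < 1 := hy
    show ‖(T x : Y) - (T y : Y)‖ = ‖(x : X) - (y : X)‖
    rw [hT x hx', hT y hy']
    exact D.T₀_iso hw₀ hPw₀ x.2 y.2 hx' hy'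
  have onto : ∀ y : LinearMap.ker Q, ‖y‖ < 1 → ∃ x : LinearMap.ker P, ‖x‖ < 1 ∧ T x = y := by
    intro y hy
    have hy' : ‖(y : Y)‖ < 1 := hy
    obtain ⟨z, hz, hzn, hzT⟩ := D.T₀_onto hw₀ hPw₀ y.2 hy'
    have hz1 : ‖z‖ < 1 := by rw [hzn]; exact hy'
    refine ⟨⟨z, hz⟩, hz1, ?_⟩
    apply Subtype.ext
    rw [hT ⟨z, hz⟩ hz1]
    exact hzT
  obtain ⟨U, hU⟩ := ball_linear hT0 iso onto
  refine ⟨U, fun z hz => ?_⟩
  have h1 := hU z hz
  have h2 := hT z hz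
  rw [h1] at h2
  rw [h2]
  simp [T₀]

/-- The linear isometries for two base points coincide. -/
theorem U_unique {w₁ : X} (hw₀ : ‖w₀‖ = 1) (hPw₀ : P w₀ = w₀) (hw₁ : ‖w₁‖ = 1) (hPw₁ : P w₁ = w₁)
    {x : X} (hx : P x = 0) (hx1 : ‖x‖ < 1)
    {u₀ u₁ : Y} (h₀ : f (x + bb p ‖x‖ • w₀) = u₀ + bb p ‖x‖ • f w₀)
    (h₁ : f (x + bb p ‖x‖ • w₁) = u₁ + bb p ‖x‖ • f w₁) : u₀ = u₁ := by
  have hp := D.sum.pos
  have hlt : ‖x‖ ^ p < 1 := rpow_lt_one_of_norm hp (norm_nonneg _) hx1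
  set b := bb p ‖x‖ with hb
  have hb0 : 0 < b := bb_pos hlt
  have hu₀ := D.unit_pt hw₀ hPw₀ hx hx1
  have hu₁ := D.unit_pt hw₁ hPw₁ hx hx1
  rw [← hb] at hu₀ hu₁
  set y := f (x + b • w₀) - f (x + b • w₁) with hy
  have hQy : Q y = b • (w₀ - w₁) := by
    rw [hy, map_sub, D.Qf _ hu₀, D.Qf _ hu₁, map_add, map_add, map_smul, map_smul, hx, hPw₀, hPw₁,
      zero_add, zero_add, smul_sub]
  have hrad : rad f (Q y) = b • (f w₀ - f w₁) := by
    rw [hQy, rad_smul D.iso, ← D.rad_sub_of_norm_eq hPw₀ hPw₁ (by rw [hw₀, hw₁]), rad_unit hw₀,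
      rad_unit hw₁]
  have e : y - rad f (Q y) = u₀ - u₁ := by
    rw [hrad, hy, h₀, h₁, smul_sub]
    abel
  have h2 := D.ysum y
  rw [e, hQy] at h2
  have h3 : ‖y‖ = ‖b • (w₀ - w₁)‖ := by
    rw [hy, D.iso.iso _ _ hu₀ hu₁]
    congr 1
    rw [smul_sub]; abel
  rw [h3] at h2
  have h4 : ‖u₀ - u₁‖ ^ p = 0 := by linarith
  have h5 : ‖u₀ - u₁‖ = 0 := by
    rw [Real.rpow_eq_zero (norm_nonneg _) hp.ne'] at h4
    exact h4
  exact sub_eq_zero.mp (norm_eq_zero.mp h5)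

end Data

end Vale.Agent.Lib.P084.LpSum.Proj
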