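import Vale.Agent.Lib.P084.LpSum.Proj2

/-!
Assembly: the Mazur-Ulam property for `l_p`-sums with a strictly convex summand.
-/

namespace Vale.Agent.Lib.P084.LpSum.Proj

open Vale.Agent.Lib.P084.LpSum

open Vale.Agent.Lib.P084.UC Vale.Agent.Lib.P084.Inf Vale.Agent.Lib.P084.RNP
open Vale.Agent.Lib.P084.LSum (rad rad_zero rad_unit rad_neg rad_smul rad_smul_unit norm_rad
  norm_inv_smul')

variable {X Y : Type*} [NormedAddCommGroup X] [NormedSpace ℝ X] [NormedAddCommGroup Y]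
  [NormedSpace ℝ Y]

variable {P : X →ₗ[ℝ] X} {p : ℝ} {f : X → Y} {Q : Y →ₗ[ℝ] X}

namespace Data

variable (D : Data P p f Q) {w₀ : X} {U : LinearMap.ker P ≃ₗᵢ[ℝ] LinearMap.ker Q}

include D

/-- The formula on the points with nonzero component in the strictly convex summand. -/
theorem formula_ne
    (hU : ∀ w : X, ‖w‖ = 1 → P w = w → ∀ z : LinearMap.ker P, ‖(z : X)‖ < 1 →
      f ((z : X) + bb p ‖(z : X)‖ • w) = (U z : Y) + bb p ‖(z : X)‖ • f w)
    {x : X} (hx : ‖x‖ = 1) (hPx : P x ≠ 0) :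
    f x = (U ⟨x - P x, D.sum.sub_idem x⟩ : Y) + rad f (P x) := by
  have hS := D.sum
  have hp := hS.pos
  have hr : 0 < ‖P x‖ := norm_pos_iff.2 hPx
  set w := ‖P x‖⁻¹ • P x with hw
  have hw1 : ‖w‖ = 1 := norm_inv_smul' hPx
  have hPw : P w = w := by rw [hw, map_smul, hS.idem]
  set z : LinearMap.ker P := ⟨x - P x, hS.sub_idem x⟩ with hz
  have hsum : ‖(z : X)‖ ^ p + ‖P x‖ ^ p = 1 := by
    have := hS.norm_rpow x
    rw [hx, Real.one_rpow] at this
    exact this.symm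
  have hz1 : ‖(z : X)‖ < 1 := by
    have h1 : 0 < ‖P x‖ ^ p := Real.rpow_pos_of_pos hr _
    have h2 : ‖(z : X)‖ ^ p < 1 := by linarith
    by_contra hcon
    push Not at hcon
    have := Real.one_le_rpow hcon hp.le
    linarith
  have hbb : bb p ‖(z : X)‖ = ‖P x‖ := bb_of_rpow hp (norm_nonneg _) hsum
  have h := hU w hw1 hPw z hz1
  rw [hbb] at h
  have e1 : (z : X) + ‖P x‖ • w = x := by
    rw [hw, smul_smul, mul_inv_cancel₀ hr.ne', one_smul]
    show x - P x + P x = x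
    rw [sub_add_cancel]
  rw [e1] at h
  rw [h]
  congr 1

/-- The formula on the points of the other summand. -/
theorem formula_zero
    (hU : ∀ w : X, ‖w‖ = 1 → P w = w → ∀ z : LinearMap.ker P, ‖(z : X)‖ < 1 →
      f ((z : X) + bb p ‖(z : X)‖ • w) = (U z : Y) + bb p ‖(z : X)‖ • f w)
    (hw₀ : ‖w₀‖ = 1) (hPw₀ : P w₀ = w₀)
    {x : X} (hx : ‖x‖ = 1) (hPx : P x = 0) :
    f x = (U ⟨x, hPx⟩ : Y) := by
  have hS := D.sum
  have hp := hS.pos
  have hUx : ‖(U ⟨x, hPx⟩ : Y)‖ = 1 := by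
    have h1 : ‖U ⟨x, hPx⟩‖ = ‖(⟨x, hPx⟩ : LinearMap.ker P)‖ := U.norm_map _
    have h2 : ‖(⟨x, hPx⟩ : LinearMap.ker P)‖ = ‖x‖ := rfl
    have h3 : ‖U ⟨x, hPx⟩‖ = ‖(U ⟨x, hPx⟩ : Y)‖ := rfl
    rw [← h3, h1, h2, hx]
  have hsmall : ∀ δ : ℝ, 0 < δ → ‖f x - (U ⟨x, hPx⟩ : Y)‖ ≤ 0 + δ := by
    intro δ hδ
    set ε : ℝ := δ / 4 with hε
    have hε0 : 0 < ε := by rw [hε]; linarith
    set v : X := x + ε • w₀ with hv
    set N : ℝ := ‖v‖ with hN
    have hPv : P v = ε • w₀ := by rw [hv, map_add, hPx, zero_add, map_smul, hPw₀]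
    have hNp : N ^ p = 1 + ε ^ p := by
      rw [hN, hv, hS.add_sum hPx (by rw [map_smul, hPw₀]), hx, Real.one_rpow, norm_smul, hw₀,
        mul_one, Real.norm_of_nonneg hε0.le]
    have hN1 : 1 ≤ N := by
      by_contra hcon
      push Not at hcon
      have h1 := Real.rpow_lt_one (norm_nonneg v) hcon hp
      have h2 : 0 < ε ^ p := Real.rpow_pos_of_pos hε0 _
      rw [hN] at hNp
      linarith
    have hN2 : N ≤ 1 + ε := by
      have h1 := norm_add_le x (ε • w₀)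
      rw [hx, norm_smul, hw₀, mul_one, Real.norm_of_nonneg hε0.le] at h1
      exact h1
    have hN0 : 0 < N := by linarith
    have hinv1 : N⁻¹ ≤ 1 := inv_le_one_of_one_le₀ hN1
    have hinv0 : 0 < N⁻¹ := inv_pos.mpr hN0
    set a : ℝ := 1 - N⁻¹ with ha
    set c : ℝ := N⁻¹ * ε with hc
    have ha0 : 0 ≤ a := by rw [ha]; linarith
    have haε : a ≤ ε := by
      have : a = (N - 1) * N⁻¹ := by rw [ha]; field_simp
      rw [this]
      nlinarith
    have hc0 : 0 < c := by positivity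
    have hcε : c ≤ ε := by rw [hc]; nlinarith
    set u : X := N⁻¹ • v with hu
    have hu1 : ‖u‖ = 1 := by
      rw [hu, norm_smul, norm_inv, norm_norm, ← hN, inv_mul_cancel₀ hN0.ne']
    have hPu : P u = c • w₀ := by rw [hu, map_smul, hPv, smul_smul]
    have hPune : P u ≠ 0 := by
      rw [hPu]
      intro h
      have h2 := congrArg norm h
      rw [norm_smul, hw₀, mul_one, norm_zero, Real.norm_of_nonneg hc0.le] at h2
      linarith
    have hfu := D.formula_ne hU hu1 hPune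
    have hsub : (⟨u - P u, hS.sub_idem u⟩ : LinearMap.ker P) = N⁻¹ • (⟨x, hPx⟩ : LinearMap.ker P) := by
      apply Subtype.ext
      show u - P u = N⁻¹ • x
      rw [hPu, hu, hv, hc, smul_add, smul_smul]
      abel
    rw [hsub, map_smul, hPu, rad_smul_unit D.iso _ hw₀] at hfu
    have hux : x - u = a • x - c • w₀ := by
      rw [hu, hv, hc, ha, smul_add, smul_smul, sub_smul, one_smul]
      abel
    have h1 : ‖f x - f u‖ ≤ a + c := by
      rw [D.iso.iso x u hx hu1, hux]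
      refine (norm_sub_le _ _).trans ?_
      rw [norm_smul, norm_smul, hx, hw₀, Real.norm_of_nonneg ha0, Real.norm_of_nonneg hc0.le]
      linarith
    have h2 : ‖f u - (U ⟨x, hPx⟩ : Y)‖ ≤ a + c := by
      have e : f u - (U ⟨x, hPx⟩ : Y) = c • f w₀ - a • (U ⟨x, hPx⟩ : Y) := by
        rw [hfu, ha]
        push_cast
        rw [sub_smul, one_smul]
        abel
      rw [e]
      refine (norm_sub_le _ _).trans ?_
      rw [norm_smul, norm_smul, hUx, D.iso.norm_eq _ hw₀, Real.norm_of_nonneg ha0,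
        Real.norm_of_nonneg hc0.le]
      linarith
    have h3 : ‖f x - (U ⟨x, hPx⟩ : Y)‖ ≤ ‖f x - f u‖ + ‖f u - (U ⟨x, hPx⟩ : Y)‖ :=
      norm_sub_le_norm_sub_add_norm_sub _ _ _
    have : δ = 4 * ε := by rw [hε]; ring
    linarith
  have h0 : ‖f x - (U ⟨x, hPx⟩ : Y)‖ ≤ 0 := le_of_forall_pos_le_add hsmall
  exact sub_eq_zero.mp (norm_le_zero_iff.mp h0)

/-- The formula on the whole sphere. -/
theorem formula
    (hU : ∀ w : X, ‖w‖ = 1 → P w = w → ∀ z : LinearMap.ker P, ‖(z : X)‖ < 1 →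
      f ((z : X) + bb p ‖(z : X)‖ • w) = (U z : Y) + bb p ‖(z : X)‖ • f w)
    (hw₀ : ‖w₀‖ = 1) (hPw₀ : P w₀ = w₀) {x : X} (hx : ‖x‖ = 1) :
    f x = (U ⟨x - P x, D.sum.sub_idem x⟩ : Y) + rad f (P x) := by
  by_cases hPx : P x = 0
  · have h := D.formula_zero hU hw₀ hPw₀ hx hPx
    have e : (⟨x - P x, D.sum.sub_idem x⟩ : LinearMap.ker P) = ⟨x, hPx⟩ := by
      apply Subtype.ext
      show x - P x = x
      rw [hPx, sub_zero]
    rw [e, hPx, rad_zero, add_zero]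
    exact h
  · exact D.formula_ne hU hx hPx

/-- Additivity of the radial map on the strictly convex summand, small vectors. -/
theorem rad_sub_small
    (hU : ∀ w : X, ‖w‖ = 1 → P w = w → ∀ z : LinearMap.ker P, ‖(z : X)‖ < 1 →
      f ((z : X) + bb p ‖(z : X)‖ • w) = (U z : Y) + bb p ‖(z : X)‖ • f w)
    (hw₀ : ‖w₀‖ = 1) (hPw₀ : P w₀ = w₀) {a b : X} (ha : P a = a) (hb : P b = b)
    (ha1 : ‖a‖ < 1) (hb1 : ‖b‖ < 1) : rad f (a - b) = rad f a - rad f b := by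
  by_cases hab : ‖a‖ = ‖b‖
  · exact (D.rad_sub_of_norm_eq ha hb hab).symm
  have hS := D.sum
  have hp := hS.pos
  set D0 : Y := rad f a - rad f b - rad f (a - b) with hD0
  have hQD : Q D0 = 0 := by
    rw [hD0, map_sub, map_sub, D.Q_rad ha, D.Q_rad hb, D.Q_rad (by rw [map_sub, ha, hb]), sub_self]
  suffices h : D0 = 0 from (sub_eq_zero.mp h).symm
  by_contra hD
  set d : LinearMap.ker P := U.symm ⟨D0, hQD⟩ with hd
  have hUd : (U d : Y) = D0 := by rw [hd, U.apply_symm_apply]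
  have hd0 : d ≠ 0 := by
    intro h
    rw [h, map_zero] at hUd
    exact hD hUd.symm
  have hdn : 0 < ‖(d : X)‖ := by
    have : 0 < ‖d‖ := norm_pos_iff.2 hd0
    exact this
  have halt : ‖a‖ ^ p < 1 := rpow_lt_one_of_norm hp (norm_nonneg _) ha1
  have hblt : ‖b‖ ^ p < 1 := rpow_lt_one_of_norm hp (norm_nonneg _) hb1
  set ρa := bb p ‖a‖ with hρa
  set ρb := bb p ‖b‖ with hρb
  have hρa0 : 0 < ρa := bb_pos halt
  have hρb0 : 0 < ρb := bb_pos hblt
  set η := ρa - ρb with hη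
  have hη0 : η ≠ 0 := by
    intro h
    apply hab
    have e : ρa = ρb := sub_eq_zero.mp h
    have h1 := bb_rpow hp halt.le
    have h2 := bb_rpow hp hblt.le
    rw [← hρa] at h1
    rw [← hρb, ← e, h1] at h2
    have h3 : ‖a‖ ^ p = ‖b‖ ^ p := by linarith
    exact (Real.rpow_left_inj (norm_nonneg _) (norm_nonneg _) hp.ne').1 h3
  have hηabs : 0 < |η| := abs_pos.mpr hη0
  -- the direction
  set s : ℝ := |η| / η with hs
  have hsabs : |s| = 1 := by
    rw [hs, abs_div, abs_abs, div_self hηabs.ne']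
  have hsη : η * s = |η| := by rw [hs]; field_simp
  set ζ : LinearMap.ker P := (s * ‖(d : X)‖⁻¹) • d with hζ
  have hζn : ‖(ζ : X)‖ = 1 := by
    show ‖(s * ‖(d : X)‖⁻¹) • (d : X)‖ = 1
    rw [norm_smul, norm_mul, Real.norm_eq_abs, hsabs, one_mul, norm_inv, norm_norm,
      inv_mul_cancel₀ hdn.ne']
  have hPζ : P (ζ : X) = 0 := ζ.2
  set x1 : X := ρa • (ζ : X) + a with hx1
  set x2 : X := ρb • (ζ : X) + b with hx2
  have hPx1 : P x1 = a := by rw [hx1, map_add, map_smul, hPζ, smul_zero, zero_add, ha]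
  have hPx2 : P x2 = b := by rw [hx2, map_add, map_smul, hPζ, smul_zero, zero_add, hb]
  have hx1n : ‖x1‖ = 1 := by
    apply hS.norm_eq_one
    rw [hx1, hS.add_sum (by rw [map_smul, hPζ, smul_zero]) ha, norm_smul, hζn, mul_one,
      Real.norm_of_nonneg hρa0.le, hρa, bb_rpow hp halt.le]
    ring
  have hx2n : ‖x2‖ = 1 := by
    apply hS.norm_eq_one
    rw [hx2, hS.add_sum (by rw [map_smul, hPζ, smul_zero]) hb, norm_smul, hζn, mul_one,
      Real.norm_of_nonneg hρb0.le, hρb, bb_rpow hp hblt.le]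
    ring
  have hz1 : (⟨x1 - P x1, hS.sub_idem x1⟩ : LinearMap.ker P) = ρa • ζ := by
    apply Subtype.ext
    show x1 - P x1 = ρa • (ζ : X)
    rw [hPx1, hx1, add_sub_cancel_right]
  have hz2 : (⟨x2 - P x2, hS.sub_idem x2⟩ : LinearMap.ker P) = ρb • ζ := by
    apply Subtype.ext
    show x2 - P x2 = ρb • (ζ : X)
    rw [hPx2, hx2, add_sub_cancel_right]
  have hf1 := D.formula hU hw₀ hPw₀ hx1n
  have hf2 := D.formula hU hw₀ hPw₀ hx2n
  rw [hz1, map_smul, hPx1] at hf1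
  rw [hz2, map_smul, hPx2] at hf2
  set y : Y := f x1 - f x2 with hy
  have hQy : Q y = a - b := by
    rw [hy, map_sub, D.Qf _ hx1n, D.Qf _ hx2n, hPx1, hPx2]
  have hf1' : f x1 = ρa • (U ζ : Y) + rad f a := hf1
  have hf2' : f x2 = ρb • (U ζ : Y) + rad f b := hf2
  have hU1 : (U (η • ζ + d) : Y) = η • (U ζ : Y) + (U d : Y) := by
    rw [map_add U, map_smul U η ζ]; rfl
  have e1 : y - rad f (Q y) = (U (η • ζ + d) : Y) := by
    rw [hU1, hUd, hQy, hy, hf1', hf2', hD0, hη]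
    generalize (U ζ : Y) = u
    rw [sub_smul]; abel
  have hcomb : η • ζ + d = (|η| * ‖(d : X)‖⁻¹ + 1) • d := by
    rw [hζ, smul_smul, ← mul_assoc, hsη, add_smul, one_smul]
  have hnorm : ‖y - rad f (Q y)‖ = |η| + ‖(d : X)‖ := by
    have h1 : ‖(U (η • ζ + d) : Y)‖ = ‖(η • ζ + d : LinearMap.ker P)‖ := U.norm_map _
    rw [e1, h1, hcomb]
    show ‖(|η| * ‖(d : X)‖⁻¹ + 1) • (d : X)‖ = _
    rw [norm_smul, Real.norm_of_nonneg (by positivity), add_mul, mul_assoc,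
      inv_mul_cancel₀ hdn.ne', mul_one, one_mul]
  have h2 := D.ysum y
  rw [hnorm, hQy] at h2
  have h3 : ‖y‖ = ‖η • (ζ : X) + (a - b)‖ := by
    rw [hy, D.iso.iso _ _ hx1n hx2n]
    congr 1
    rw [hx1, hx2, hη, sub_smul]
    abel
  have h4 := hS.add_sum (z := η • (ζ : X)) (w := a - b) (by rw [map_smul, hPζ, smul_zero])
    (by rw [map_sub, ha, hb])
  rw [← h3, h2, norm_smul, hζn, mul_one, Real.norm_eq_abs] at h4
  have h5 : (|η| + ‖(d : X)‖) ^ p = |η| ^ p := by linarith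
  have h6 := (Real.rpow_left_inj (by positivity) (abs_nonneg _) hp.ne').1 h5
  linarith

/-- Additivity of the radial map on the strictly convex summand. -/
theorem rad_sub
    (hU : ∀ w : X, ‖w‖ = 1 → P w = w → ∀ z : LinearMap.ker P, ‖(z : X)‖ < 1 →
      f ((z : X) + bb p ‖(z : X)‖ • w) = (U z : Y) + bb p ‖(z : X)‖ • f w)
    (hw₀ : ‖w₀‖ = 1) (hPw₀ : P w₀ = w₀) {a b : X} (ha : P a = a) (hb : P b = b) :
    rad f (a - b) = rad f a - rad f b := by
  set M : ℝ := ‖a‖ + ‖b‖ + 1 with hM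
  have hM0 : 0 < M := by positivity
  have hinv : M⁻¹ ≠ 0 := inv_ne_zero hM0.ne'
  have hlt : ∀ c : X, ‖c‖ < M → ‖M⁻¹ • c‖ < 1 := by
    intro c hc
    rw [norm_smul, norm_inv, Real.norm_of_nonneg hM0.le, inv_mul_lt_iff₀ hM0, mul_one]
    exact hc
  have h := D.rad_sub_small hU hw₀ hPw₀ (a := M⁻¹ • a) (b := M⁻¹ • b)
    (by rw [map_smul, ha]) (by rw [map_smul, hb])
    (hlt a (by rw [hM]; linarith [norm_nonneg b])) (hlt b (by rw [hM]; linarith [norm_nonneg a]))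
  rw [← smul_sub, rad_smul D.iso, rad_smul D.iso, rad_smul D.iso, ← smul_sub] at h
  exact smul_right_injective Y hinv h

/-- Additivity on unit triples. -/
theorem additive
    (hU : ∀ w : X, ‖w‖ = 1 → P w = w → ∀ z : LinearMap.ker P, ‖(z : X)‖ < 1 →
      f ((z : X) + bb p ‖(z : X)‖ • w) = (U z : Y) + bb p ‖(z : X)‖ • f w)
    (hw₀ : ‖w₀‖ = 1) (hPw₀ : P w₀ = w₀) {x z : X} (hx : ‖x‖ = 1) (hz : ‖z‖ = 1)
    (hxz : ‖x + z‖ = 1) : f (x + z) = f x + f z := by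
  have hS := D.sum
  rw [D.formula hU hw₀ hPw₀ hxz, D.formula hU hw₀ hPw₀ hx, D.formula hU hw₀ hPw₀ hz]
  have e : (⟨x + z - P (x + z), hS.sub_idem (x + z)⟩ : LinearMap.ker P) =
      ⟨x - P x, hS.sub_idem x⟩ + ⟨z - P z, hS.sub_idem z⟩ := by
    apply Subtype.ext
    show x + z - P (x + z) = x - P x + (z - P z)
    rw [map_add]
    abel
  have hr : rad f (P (x + z)) = rad f (P x) + rad f (P z) := by
    have h := D.rad_sub hU hw₀ hPw₀ (a := P x) (b := - P z) (hS.idem x)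
      (by rw [map_neg, hS.idem])
    rw [sub_neg_eq_add, rad_neg D.iso, sub_neg_eq_add] at h
    rw [map_add, h]
  rw [e, map_add, hr]
  push_cast
  abel

end Data

/-- **Main theorem** with total functions. -/
theorem exists_linear_of_isPSum (hrX : (4 : Cardinal) ≤ Module.rank ℝ X)
    (hrY : (4 : Cardinal) ≤ Module.rank ℝ Y) (hf : IsSphereIso f) (hS : IsPSum P p)
    (hP0 : ∃ x, P x ≠ 0) : ∃ T : X ≃ₗᵢ[ℝ] Y, ∀ x, ‖x‖ = 1 → T x = f x := by
  have hodd : ∀ x : X, ‖x‖ = 1 → f (-x) = - f x := fun x hx => odd_of_isSphereIso hf hx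
  obtain ⟨Q, hQ, -⟩ := exists_Q hS hrY hf hodd
  have D : Data P p f Q := ⟨hS, hf, hodd, hQ⟩
  obtain ⟨x, hx⟩ := hP0
  have hw₀ : ‖‖P x‖⁻¹ • P x‖ = 1 := norm_inv_smul' hx
  have hPw₀ : P (‖P x‖⁻¹ • P x) = ‖P x‖⁻¹ • P x := by rw [map_smul, hS.idem]
  obtain ⟨U, hU0⟩ := D.exists_U hw₀ hPw₀
  have hU : ∀ w : X, ‖w‖ = 1 → P w = w → ∀ z : LinearMap.ker P, ‖(z : X)‖ < 1 →
      f ((z : X) + bb p ‖(z : X)‖ • w) = (U z : Y) + bb p ‖(z : X)‖ • f w := by
    intro w hw hPw z hz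
    obtain ⟨U1, hU1⟩ := D.exists_U hw hPw
    have h1 := hU0 z hz
    have h2 := hU1 z hz
    rw [D.U_unique hw₀ hPw₀ hw hPw z.2 hz h1 h2]
    exact h2
  exact exists_linear_of_additive hrX hf hodd
    (fun a b ha hb hab => D.additive hU hw₀ hPw₀ ha hb hab)

/-- A continuous linear `l_p`-projection with strictly convex range. -/
theorem isPSum_of_strictConvex {R : X →L[ℝ] X} (hp : 1 < p) (hid : ∀ x, R (R x) = R x)
    (hn : ∀ x, ‖x‖ ^ p = ‖x - R x‖ ^ p + ‖R x‖ ^ p)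
    (hsc : StrictConvexSpace ℝ (LinearMap.range (R : X →ₗ[ℝ] X))) :
    IsPSum (R : X →ₗ[ℝ] X) p := by
  refine ⟨hp, hid, hn, fun w e hw he h1 h2 => ?_⟩
  have hw' : R w = w := hw
  have he' : R e = e := he
  let A : LinearMap.range (R : X →ₗ[ℝ] X) := ⟨w + e, ⟨w + e, by
    show R (w + e) = w + e
    rw [map_add, hw', he']⟩⟩
  let B : LinearMap.range (R : X →ₗ[ℝ] X) := ⟨w - e, ⟨w - e, by
    show R (w - e) = w - e
    rw [map_sub, hw', he']⟩⟩
  have hA : ‖A‖ = ‖w‖ := h1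
  have hB : ‖B‖ = ‖w‖ := h2
  have hAB : ‖A + B‖ = ‖A‖ + ‖B‖ := by
    rw [hA, hB]
    show ‖(w + e) + (w - e)‖ = _
    have e1 : (w + e) + (w - e) = (2 : ℝ) • w := by rw [two_smul]; abel
    rw [e1, norm_smul]
    norm_num
    ring
  have hEq := eq_of_norm_eq_of_norm_add_eq (hA.trans hB.symm) hAB
  have hEq' : w + e = w - e := congrArg Subtype.val hEq
  have h3 : (2 : ℝ) • e = 0 := by
    rw [two_smul]
    have h4 : w + e - w + e = w - e - w + e := by rw [hEq']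
    have e2 : w + e - w + e = e + e := by abel
    have e3 : w - e - w + e = 0 := by abel
    rw [e2, e3] at h4
    exact h4
  simp at h3
  exact h3

/-- An `l_p`-projection with strictly convex range: source version, maps of unit spheres. -/
theorem extends_sphere_source (f : Metric.sphere (0 : X) 1 → Metric.sphere (0 : Y) 1)
    (hf : Isometry f) (hs : Function.Surjective f) {R : X →L[ℝ] X} (hp : 1 < p)
    (hid : ∀ x, R (R x) = R x) (hn : ∀ x, ‖x‖ ^ p = ‖x - R x‖ ^ p + ‖R x‖ ^ p)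
    (hsc : StrictConvexSpace ℝ (LinearMap.range (R : X →ₗ[ℝ] X))) (h0 : R ≠ 0)
    (hX : ¬ FiniteDimensional ℝ X) (hY : ¬ FiniteDimensional ℝ Y) :
    ∃ T : X ≃ₗᵢ[ℝ] Y, ∀ x : Metric.sphere (0 : X) 1, T x = f x := by
  obtain ⟨g, hg, hgf⟩ := LSum.exists_ambient f hf hs
  have hP0 : ∃ x, (R : X →ₗ[ℝ] X) x ≠ 0 := by
    by_contra hcon
    push Not at hcon
    exact h0 (ContinuousLinearMap.ext hcon)
  obtain ⟨T, hT⟩ := exists_linear_of_isPSum (four_le_rank_of_infinite hX)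
    (four_le_rank_of_infinite hY) hg (isPSum_of_strictConvex hp hid hn hsc) hP0
  exact ⟨T, fun x => by rw [hT x (by simpa using x.2), hgf]⟩

/-- An `l_p`-projection with strictly convex range: target version, maps of unit spheres. -/
theorem extends_sphere_target (f : Metric.sphere (0 : X) 1 → Metric.sphere (0 : Y) 1)
    (hf : Isometry f) (hs : Function.Surjective f) {R : Y →L[ℝ] Y} (hp : 1 < p)
    (hid : ∀ y, R (R y) = R y) (hn : ∀ y, ‖y‖ ^ p = ‖y - R y‖ ^ p + ‖R y‖ ^ p)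
    (hsc : StrictConvexSpace ℝ (LinearMap.range (R : Y →ₗ[ℝ] Y))) (h0 : R ≠ 0)
    (hX : ¬ FiniteDimensional ℝ X) (hY : ¬ FiniteDimensional ℝ Y) :
    ∃ T : X ≃ₗᵢ[ℝ] Y, ∀ x : Metric.sphere (0 : X) 1, T x = f x := by
  obtain ⟨h, hh, hhs, htr⟩ := LSum.exists_inverse f hf hs
  exact htr (extends_sphere_source h hh hhs hp hid hn hsc h0 hY hX)

end Vale.Agent.Lib.P084.LpSum.Proj
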